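import Vale.Agent.Lib.P064.Copies

/-!
The expected number of copies in `G(n, p)`.
-/

open Finset
open scoped Classical

noncomputable section

set_option linter.unusedSectionVars false

namespace Vale.Agent.Lib.P064

variable {W : Type} [Fintype W]

lemma ncard_edgeSet_eq {V : Type} [Fintype V] (G : SimpleGraph V) :
    G.edgeSet.ncard = G.edgeFinset.card := by
  rw [Set.ncard_eq_toFinset_card']
  rfl

lemma sum_graphs_containing {n : ℕ} (p : ℝ) (E : Finset (Sym2 (Fin n)))
    (hE : ∀ e ∈ E, ¬ e.IsDiag) :
    ∑ G : SimpleGraph (Fin n), (if E ⊆ G.edgeFinset then gnpProb n p G else 0) = p ^ E.card := by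
  set All : Finset (Sym2 (Fin n)) := (⊤ : SimpleGraph (Fin n)).edgeFinset with hAll
  have hAllcard : All.card = n.choose 2 := by
    have := SimpleGraph.card_edgeFinset_top_eq_card_choose_two (V := Fin n)
    simpa [hAll] using this
  have hmemAll : ∀ e : Sym2 (Fin n), e ∈ All ↔ ¬ e.IsDiag := by
    intro e
    simp [hAll, SimpleGraph.edgeSet_top]
  have hEAll : E ⊆ All := fun e he => (hmemAll e).2 (hE e he)
  set φ : Finset (Sym2 (Fin n)) → ℝ := fun T =>
    if E ⊆ T then p ^ T.card * (1 - p) ^ (All.card - T.card) else 0 with hφ
  have h1 : ∑ G : SimpleGraph (Fin n), (if E ⊆ G.edgeFinset then gnpProb n p G else 0) =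
      ∑ T ∈ All.powerset, φ T := by
    apply Finset.sum_nbij' (s := univ) (t := All.powerset)
      (fun G : SimpleGraph (Fin n) => (G.edgeFinset : Finset (Sym2 (Fin n))))
      (fun T : Finset (Sym2 (Fin n)) => SimpleGraph.fromEdgeSet (T : Set (Sym2 (Fin n))))
    · intro G _
      refine mem_powerset.2 ?_
      intro e he
      rw [hmemAll]
      exact G.not_isDiag_of_mem_edgeSet (SimpleGraph.mem_edgeFinset.1 he)
    · intro T _
      exact mem_univ _
    · intro G _
      simp
    · intro T hT
      have hT' := mem_powerset.1 hT
      ext e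
      simp only [SimpleGraph.mem_edgeFinset, SimpleGraph.edgeSet_fromEdgeSet, Set.mem_diff,
        mem_coe, Sym2.mem_diagSet]
      constructor
      · exact fun h => h.1
      · exact fun h => ⟨h, (hmemAll e).1 (hT' h)⟩
    · intro G _
      simp only [hφ, gnpProb, ncard_edgeSet_eq, hAllcard]
  rw [h1]
  have h2 : ∑ T ∈ All.powerset, φ T =
      ∑ T' ∈ (All \ E).powerset, p ^ E.card * (p ^ T'.card * (1 - p) ^ ((All \ E).card - T'.card)) := by
    simp only [hφ]
    rw [← Finset.sum_filter]
    apply Finset.sum_nbij' (fun T => T \ E) (fun T' => T' ∪ E)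
    · intro T hT
      obtain ⟨hT1, -⟩ := mem_filter.1 hT
      exact mem_powerset.2 (sdiff_subset_sdiff (mem_powerset.1 hT1) (Subset.refl _))
    · intro T' hT'
      have hT'' := mem_powerset.1 hT'
      refine mem_filter.2 ⟨mem_powerset.2 (union_subset (hT''.trans sdiff_subset) hEAll),
        subset_union_right⟩
    · intro T hT
      obtain ⟨-, hT2⟩ := mem_filter.1 hT
      exact sdiff_union_of_subset hT2
    · intro T' hT'
      have hT'' := mem_powerset.1 hT'
      apply union_sdiff_cancel_right
      rw [disjoint_left]
      intro e he he2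
      exact (mem_sdiff.1 (hT'' he)).2 he2
    · intro T hT
      obtain ⟨hT1, hT2⟩ := mem_filter.1 hT
      have hT1' := mem_powerset.1 hT1
      have e1 : (T \ E).card = T.card - E.card := card_sdiff_of_subset hT2
      have e2 : (All \ E).card = All.card - E.card := card_sdiff_of_subset hEAll
      have e3 : E.card ≤ T.card := card_le_card hT2
      have e4 : T.card ≤ All.card := card_le_card hT1'
      have e5 : p ^ T.card = p ^ E.card * p ^ (T \ E).card := by
        rw [← pow_add]; congr 1; omega
      have e6 : All.card - T.card = (All \ E).card - (T \ E).card := by omega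
      rw [e5, e6]
      ring
  rw [h2, ← Finset.mul_sum, Finset.sum_pow_mul_eq_add_pow]
  simp

/-- The expected number of copies times the number of automorphisms. -/
theorem expCopies_mul_aut (n : ℕ) (p : ℝ) (F : SimpleGraph W) :
    expCopies n p F * (injCount F F : ℝ) =
      (n.descFactorial (Fintype.card W) : ℝ) * p ^ F.edgeSet.ncard := by
  set I : Finset (W → Fin n) := univ.filter Function.Injective with hI
  have hIcard : I.card = n.descFactorial (Fintype.card W) := by
    have : I = (univ : Finset (W ↪ Fin n)).image (fun e : W ↪ Fin n => (⇑e : W → Fin n)) := by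
      ext f
      simp only [hI, mem_filter, mem_univ, true_and, mem_image]
      constructor
      · intro h
        exact ⟨⟨f, h⟩, rfl⟩
      · rintro ⟨e, rfl⟩
        exact e.injective
    rw [this, card_image_of_injective _ DFunLike.coe_injective, card_univ,
      Fintype.card_embedding_eq, Fintype.card_fin]
  have hinjCount : ∀ G : SimpleGraph (Fin n), (injCount F G : ℝ) =
      ∑ f ∈ I, (if F.edgeFinset.image (Sym2.map f) ⊆ G.edgeFinset then (1 : ℝ) else 0) := by
    intro G
    have h1 : homSet F G = I.filter (fun f => F.edgeFinset.image (Sym2.map f) ⊆ G.edgeFinset) := by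
      ext f
      simp only [mem_homSet, hI, mem_filter, mem_univ, true_and]
      constructor
      · rintro ⟨hinj, hadj⟩
        refine ⟨hinj, ?_⟩
        intro e he
        obtain ⟨e0, he0, rfl⟩ := mem_image.1 he
        induction e0 using Sym2.ind with
        | _ a b =>
          have hab : F.Adj a b := by simpa using he0
          simpa using hadj a b hab
      · rintro ⟨hinj, hsub⟩
        refine ⟨hinj, ?_⟩
        intro a b hab
        have : s(f a, f b) ∈ F.edgeFinset.image (Sym2.map f) :=
          mem_image.2 ⟨s(a, b), by simpa using hab, rfl⟩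
        simpa using hsub this
    unfold injCount
    rw [h1, card_filter]
    push_cast
    rfl
  have hcard : ∀ f ∈ I, (F.edgeFinset.image (Sym2.map f)).card = F.edgeSet.ncard := by
    intro f hf
    have hinj : Function.Injective f := (mem_filter.1 hf).2
    rw [card_image_of_injective _ (Sym2.map.injective hinj), ncard_edgeSet_eq]
  have hdiag : ∀ f ∈ I, ∀ e ∈ F.edgeFinset.image (Sym2.map f), ¬ e.IsDiag := by
    intro f hf e he
    have hinj : Function.Injective f := (mem_filter.1 hf).2
    obtain ⟨e0, he0, rfl⟩ := mem_image.1 he
    induction e0 using Sym2.ind with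
    | _ a b =>
      have hab : F.Adj a b := by simpa using he0
      simp only [Sym2.map_mk, Sym2.mk_isDiag_iff]
      intro h
      exact hab.ne (hinj h)
  calc expCopies n p F * (injCount F F : ℝ)
      = ∑ G : SimpleGraph (Fin n), gnpProb n p G * ((copies G F : ℝ) * (injCount F F : ℝ)) := by
        unfold expCopies
        rw [Finset.sum_mul]
        apply Finset.sum_congr rfl
        intro G _
        ring
    _ = ∑ G : SimpleGraph (Fin n), gnpProb n p G * (injCount F G : ℝ) := by
        apply Finset.sum_congr rfl
        intro G _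
        rw [← copies_mul_aut F G]
        push_cast
        ring
    _ = ∑ G : SimpleGraph (Fin n), ∑ f ∈ I,
          (if F.edgeFinset.image (Sym2.map f) ⊆ G.edgeFinset then gnpProb n p G else 0) := by
        apply Finset.sum_congr rfl
        intro G _
        rw [hinjCount G, Finset.mul_sum]
        apply Finset.sum_congr rfl
        intro f _
        split_ifs <;> simp
    _ = ∑ f ∈ I, ∑ G : SimpleGraph (Fin n),
          (if F.edgeFinset.image (Sym2.map f) ⊆ G.edgeFinset then gnpProb n p G else 0) :=
        Finset.sum_comm
    _ = ∑ f ∈ I, p ^ F.edgeSet.ncard := by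
        apply Finset.sum_congr rfl
        intro f hf
        rw [sum_graphs_containing p _ (hdiag f hf), hcard f hf]
    _ = (n.descFactorial (Fintype.card W) : ℝ) * p ^ F.edgeSet.ncard := by
        rw [Finset.sum_const, hIcard, nsmul_eq_mul]

end Vale.Agent.Lib.P064
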