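import Vale.Agent.Lib.P064.Step
import Vale.Agent.Lib.P064.Expect

/-!
From edge sets to subgraphs.
-/

open Finset
open scoped Classical

noncomputable section

set_option linter.unusedSectionVars false

namespace Vale.Agent.Lib.P064

variable {V : Type} [Fintype V] {H : SimpleGraph V}

/-- The edge set of a subgraph. -/
def edgesOf (S : H.Subgraph) : Finset (Sym2 V) := univ.filter (fun e => e ∈ S.edgeSet)

lemma mem_edgesOf {S : H.Subgraph} {e : Sym2 V} : e ∈ edgesOf S ↔ e ∈ S.edgeSet := by
  simp [edgesOf]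

lemma edgesOf_subset (S : H.Subgraph) : edgesOf S ⊆ H.edgeFinset := by
  intro e he
  rw [SimpleGraph.mem_edgeFinset]
  exact SimpleGraph.Subgraph.edgeSet_subset S (mem_edgesOf.1 he)

lemma supp_edgesOf_sub (S : H.Subgraph) {x : V} (hx : x ∈ supp (edgesOf S)) : x ∈ S.verts := by
  obtain ⟨e, he, hxe⟩ := mem_supp.1 hx
  exact S.mem_verts_of_mem_edge (mem_edgesOf.1 he) hxe

lemma card_edgesOf (S : H.Subgraph) : (edgesOf S).card = S.coe.edgeSet.ncard := by
  have h : (edgesOf S : Set (Sym2 V)) = Sym2.map (Subtype.val) '' S.coe.edgeSet := by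
    rw [SimpleGraph.Subgraph.image_coe_edgeSet_coe]
    ext e
    simp [edgesOf]
  rw [← Set.ncard_coe_finset, h,
    Set.ncard_image_of_injective _ (Sym2.map.injective Subtype.val_injective)]

/-- The subgraph of `H` spanned by an edge set. -/
def subOf (U : Finset (Sym2 V)) (hU : U ⊆ H.edgeFinset) : H.Subgraph where
  verts := (supp U : Set V)
  Adj a b := s(a, b) ∈ U
  adj_sub := fun h => by
    have := hU h
    simpa using this
  edge_vert := fun h => mem_coe.2 (mem_supp_of_mem h (by simp))
  symm := ⟨fun a b h => by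
    rw [Sym2.eq_swap]
    exact h⟩

lemma edgesOf_subOf (U : Finset (Sym2 V)) (hU : U ⊆ H.edgeFinset) : edgesOf (subOf U hU) = U := by
  ext e
  rw [mem_edgesOf]
  induction e using Sym2.ind with
  | _ a b => simp [subOf]

/-- Number of automorphisms of the subgraph spanned by `U` is at least `inj U U`. -/
lemma inj_le_aut_aux (U : Finset (Sym2 V)) (S : H.Subgraph) [Fintype S.verts]
    (hvert : ∀ x, x ∈ S.verts ↔ x ∈ supp U) (hadj : ∀ a b, S.Adj a b ↔ s(a, b) ∈ U) :
    inj U U ≤ injCount S.coe S.coe := by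
  have hmaps : ∀ f ∈ Emb U U, ∀ a : S.verts, f a ∈ S.verts := by
    intro f hf a
    obtain ⟨-, -, h3⟩ := mem_Emb.1 hf
    obtain ⟨e, he, hae⟩ := mem_supp.1 ((hvert _).1 a.2)
    exact (hvert _).2 (mem_supp.2 ⟨Sym2.map f e, h3 e he, Sym2.mem_map.2 ⟨_, hae, rfl⟩⟩)
  let Φ : (V → V) → (S.verts → S.verts) := fun f a =>
    if h : f a ∈ S.verts then ⟨f a, h⟩ else a
  have hΦ : ∀ f ∈ Emb U U, ∀ a : S.verts, ((Φ f a : S.verts) : V) = f a := by
    intro f hf a
    simp only [Φ]
    rw [dif_pos (hmaps f hf a)]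
  unfold inj injCount
  refine Finset.card_le_card_of_injOn Φ ?_ ?_
  · intro f hf
    have hf' := mem_coe.1 hf
    obtain ⟨-, h2, h3⟩ := mem_Emb.1 hf'
    refine mem_coe.2 (mem_homSet.2 ⟨?_, ?_⟩)
    · intro a b hab
      have h : f a = f b := by
        rw [← hΦ f hf' a, ← hΦ f hf' b, hab]
      exact Subtype.ext (h2 (mem_coe.2 ((hvert _).1 a.2)) (mem_coe.2 ((hvert _).1 b.2)) h)
    · intro a b hab
      have hab' : s((a : V), (b : V)) ∈ U := (hadj _ _).1 hab
      have := h3 _ hab'
      simp only [Sym2.map_mk] at this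
      show S.Adj ((Φ f a : S.verts) : V) ((Φ f b : S.verts) : V)
      rw [hΦ f hf' a, hΦ f hf' b, hadj]
      exact this
  · intro f hf g hg hfg
    have hf' := mem_coe.1 hf
    have hg' := mem_coe.1 hg
    obtain ⟨h1, -, -⟩ := mem_Emb.1 hf'
    obtain ⟨g1, -, -⟩ := mem_Emb.1 hg'
    funext x
    by_cases hx : x ∈ supp U
    · have := congrFun hfg ⟨x, (hvert x).2 hx⟩
      have h2 := congrArg Subtype.val this
      rwa [hΦ f hf', hΦ g hg'] at h2
    · rw [h1 x hx, g1 x hx]

lemma inj_le_aut (U : Finset (Sym2 V)) (hU : U ⊆ H.edgeFinset) [Fintype (subOf U hU).verts] :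
    inj U U ≤ injCount (subOf U hU).coe (subOf U hU).coe :=
  inj_le_aut_aux U (subOf U hU) (fun x => by simp [subOf]) (fun a b => by simp [subOf])

/-- The hypothesis of the counting theorem follows from the expected count condition. -/
lemma hC_of_cond {n : ℕ} {q : ℝ} (hq : 0 < q)
    (hcond : ∀ F : H.Subgraph, 1 ≤ expCopies n q F.coe) :
    ∀ U ⊆ H.edgeFinset, (inj U U : ℝ) ≤ (n : ℝ) ^ (supp U).card * q ^ U.card := by
  intro U hU
  letI : Fintype (subOf U hU).verts := Fintype.ofFinite _
  have h1 := expCopies_mul_aut n q (subOf U hU).coe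
  have h2 := hcond (subOf U hU)
  have h3 : (inj U U : ℝ) ≤ (injCount (subOf U hU).coe (subOf U hU).coe : ℝ) := by
    exact_mod_cast inj_le_aut U hU
  have h4 : Fintype.card (subOf U hU).verts = (supp U).card :=
    Fintype.card_of_subtype (supp U) (fun x => by simp [subOf])
  have h5 : (subOf U hU).coe.edgeSet.ncard = U.card := by
    rw [← card_edgesOf, edgesOf_subOf]
  rw [h4, h5] at h1
  have h6 : (0 : ℝ) ≤ (injCount (subOf U hU).coe (subOf U hU).coe : ℝ) := Nat.cast_nonneg _
  have h7 : (n.descFactorial (supp U).card : ℝ) ≤ (n : ℝ) ^ (supp U).card := by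
    exact_mod_cast Nat.descFactorial_le_pow n _
  calc (inj U U : ℝ) ≤ (injCount (subOf U hU).coe (subOf U hU).coe : ℝ) := h3
    _ ≤ expCopies n q (subOf U hU).coe * (injCount (subOf U hU).coe (subOf U hU).coe : ℝ) :=
        le_mul_of_one_le_left h6 h2
    _ = (n.descFactorial (supp U).card : ℝ) * q ^ U.card := h1
    _ ≤ (n : ℝ) ^ (supp U).card * q ^ U.card :=
        mul_le_mul_of_nonneg_right h7 (pow_nonneg hq.le _)

section partB

variable (S : H.Subgraph) [Fintype S.verts]

/-- The map on `V` given by a map on `S`: the identity off the touched vertices. -/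
def tild (f : S.verts → V) : V → V := fun x =>
  if hx : x ∈ supp (edgesOf S) then f ⟨x, supp_edgesOf_sub S hx⟩ else x

lemma tild_apply {f : S.verts → V} {x : V} (hx : x ∈ supp (edgesOf S)) :
    tild S f x = f ⟨x, supp_edgesOf_sub S hx⟩ := dif_pos hx

lemma tild_mem {f : S.verts → V} (hf : f ∈ homSet S.coe H) :
    tild S f ∈ Emb (edgesOf S) H.edgeFinset := by
  obtain ⟨hinj, hadj⟩ := mem_homSet.1 hf
  refine mem_Emb.2 ⟨fun x hx => dif_neg hx, ?_, ?_⟩
  · intro x hx y hy hxy
    rw [tild_apply S (mem_coe.1 hx), tild_apply S (mem_coe.1 hy)] at hxy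
    exact congrArg Subtype.val (hinj hxy)
  · intro e he
    induction e using Sym2.ind with
    | _ a b =>
      have hab : S.Adj a b := mem_edgesOf.1 he
      have ha : a ∈ supp (edgesOf S) := mem_supp_of_mem he (by simp)
      have hb : b ∈ supp (edgesOf S) := mem_supp_of_mem he (by simp)
      rw [Sym2.map_mk, tild_apply S ha, tild_apply S hb, SimpleGraph.mem_edgeFinset,
        SimpleGraph.mem_edgeSet]
      exact hadj ⟨a, _⟩ ⟨b, _⟩ hab

/-- The vertices of `S` that are not touched. -/
def isoVerts : Finset V := (univ.filter (fun x => x ∈ S.verts)) \ supp (edgesOf S)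

lemma card_isoVerts : (isoVerts S).card = Fintype.card S.verts - (supp (edgesOf S)).card := by
  have h : Fintype.card S.verts = (univ.filter (fun x => x ∈ S.verts)).card :=
    Fintype.card_of_subtype _ (fun x => by simp)
  unfold isoVerts
  rw [h, card_sdiff_of_subset]
  intro x hx
  simpa using supp_edgesOf_sub S hx

lemma fibre_le (g : V → V) (hg : g ∈ Emb (edgesOf S) H.edgeFinset) :
    ((homSet S.coe H).filter (fun f => tild S f = g)).card ≤
      (Fintype.card V - (supp (edgesOf S)).card).descFactorial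
        (Fintype.card S.verts - (supp (edgesOf S)).card) := by
  obtain ⟨-, g2, -⟩ := mem_Emb.1 hg
  set Y : Finset V := ((supp (edgesOf S)).image g)ᶜ with hY
  have hYcard : Y.card = Fintype.card V - (supp (edgesOf S)).card := by
    rw [hY, card_compl, card_image_of_injOn g2]
  let Θ : (↥(isoVerts S) ↪ ↥Y) → (S.verts → V) := fun b a =>
    if h : a.1 ∈ supp (edgesOf S) then g a.1 else
      (b ⟨a.1, by
        unfold isoVerts
        simp only [mem_sdiff, mem_filter, mem_univ, true_and]
        exact ⟨a.2, h⟩⟩ : V)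
  have hsub : (homSet S.coe H).filter (fun f => tild S f = g) ⊆ univ.image Θ := by
    intro f hf
    obtain ⟨hf1, hf2⟩ := mem_filter.1 hf
    obtain ⟨hinj, -⟩ := mem_homSet.1 hf1
    have hiso : ∀ x : ↥(isoVerts S), x.1 ∈ S.verts ∧ x.1 ∉ supp (edgesOf S) := by
      intro x
      have := x.2
      unfold isoVerts at this
      simpa using this
    let b : ↥(isoVerts S) ↪ ↥Y :=
      { toFun := fun x => ⟨f ⟨x.1, (hiso x).1⟩, by
          rw [hY, mem_compl, mem_image]
          rintro ⟨y, hy, hyx⟩
          rw [← hf2, tild_apply S hy] at hyx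
          have := hinj hyx
          have h2 : y = x.1 := congrArg Subtype.val this
          exact (hiso x).2 (h2 ▸ hy)⟩
        inj' := by
          intro x y hxy
          have h1 : f ⟨x.1, (hiso x).1⟩ = f ⟨y.1, (hiso y).1⟩ := congrArg Subtype.val hxy
          have h2 := congrArg Subtype.val (hinj h1)
          exact Subtype.ext h2 }
    refine mem_image.2 ⟨b, mem_univ _, ?_⟩
    funext a
    simp only [Θ]
    by_cases h : a.1 ∈ supp (edgesOf S)
    · rw [dif_pos h, ← hf2, tild_apply S h]
    · rw [dif_neg h]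
      rfl
  calc ((homSet S.coe H).filter (fun f => tild S f = g)).card
      ≤ (univ.image Θ).card := card_le_card hsub
    _ ≤ (univ : Finset (↥(isoVerts S) ↪ ↥Y)).card := card_image_le
    _ = (Fintype.card V - (supp (edgesOf S)).card).descFactorial
          (Fintype.card S.verts - (supp (edgesOf S)).card) := by
        rw [card_univ, Fintype.card_embedding_eq, Fintype.card_coe, Fintype.card_coe, hYcard,
          card_isoVerts]

lemma injCount_le_inj :
    injCount S.coe H ≤ inj (edgesOf S) H.edgeFinset *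
      (Fintype.card V - (supp (edgesOf S)).card).descFactorial
        (Fintype.card S.verts - (supp (edgesOf S)).card) := by
  have hmaps : Set.MapsTo (fun f => tild S f) (homSet S.coe H : Set (S.verts → V))
      (Emb (edgesOf S) H.edgeFinset : Set (V → V)) := fun f hf => tild_mem S (mem_coe.1 hf)
  unfold injCount inj
  rw [Finset.card_eq_sum_card_fiberwise hmaps]
  calc _ ≤ ∑ _g ∈ Emb (edgesOf S) H.edgeFinset,
        (Fintype.card V - (supp (edgesOf S)).card).descFactorial
          (Fintype.card S.verts - (supp (edgesOf S)).card) :=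
        Finset.sum_le_sum (fun g hg => fibre_le S g hg)
    _ = _ := by rw [Finset.sum_const, smul_eq_mul]

end partB

lemma pow_le_exp_mul_descFactorial (n v : ℕ) (hv : v ≤ n) :
    (n : ℝ) ^ v ≤ Real.exp v * (n.descFactorial v : ℝ) := by
  have hnat : n ^ v * v.factorial ≤ v ^ v * n.descFactorial v := by
    rw [← Nat.descFactorial_self v, Nat.descFactorial_eq_prod_range v v,
      Nat.descFactorial_eq_prod_range n v]
    have h1 : n ^ v = ∏ _i ∈ range v, n := by simp
    have h2 : v ^ v = ∏ _i ∈ range v, v := by simp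
    rw [h1, h2, ← Finset.prod_mul_distrib, ← Finset.prod_mul_distrib]
    apply Finset.prod_le_prod' 
    intro i hi
    have hi' := mem_range.1 hi
    obtain ⟨a, rfl⟩ := Nat.exists_eq_add_of_lt hi'
    obtain ⟨c, rfl⟩ := Nat.exists_eq_add_of_le hv
    have e1 : i + a + 1 - i = a + 1 := by omega
    have e2 : i + a + 1 + c - i = a + 1 + c := by omega
    rw [e1, e2]
    nlinarith [Nat.zero_le (i * c), Nat.zero_le (a * c)]
  have hreal : (n : ℝ) ^ v * (v.factorial : ℝ) ≤ (v : ℝ) ^ v * (n.descFactorial v : ℝ) := by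
    exact_mod_cast hnat
  have hfpos : (0 : ℝ) < (v.factorial : ℝ) := by exact_mod_cast Nat.factorial_pos v
  have hexp : (v : ℝ) ^ v / (v.factorial : ℝ) ≤ Real.exp v :=
    Real.pow_div_factorial_le_exp _ (Nat.cast_nonneg _) _
  have hd : (0 : ℝ) ≤ (n.descFactorial v : ℝ) := Nat.cast_nonneg _
  calc (n : ℝ) ^ v = (n : ℝ) ^ v * (v.factorial : ℝ) / (v.factorial : ℝ) := by field_simp
    _ ≤ (v : ℝ) ^ v * (n.descFactorial v : ℝ) / (v.factorial : ℝ) :=
        div_le_div_of_nonneg_right hreal hfpos.le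
    _ = ((v : ℝ) ^ v / (v.factorial : ℝ)) * (n.descFactorial v : ℝ) := by ring
    _ ≤ Real.exp v * (n.descFactorial v : ℝ) := mul_le_mul_of_nonneg_right hexp hd

/-- The main count: `inj(F, H)` is at most `n_(v) (576 k q)^e`. -/
theorem injCount_bound {n : ℕ} (hV : Fintype.card V ≤ n) {q : ℝ} (hq : 0 < q)
    (hcond : ∀ F : H.Subgraph, 1 ≤ expCopies n q F.coe) (k : ℕ) (hk : H.edgeFinset.card < 4 ^ k)
    (S : H.Subgraph) [Fintype S.verts] :
    (injCount S.coe H : ℝ) ≤
      (n.descFactorial (Fintype.card S.verts) : ℝ) * ((576 * (k : ℕ) : ℝ) * q) ^ S.coe.edgeSet.ncard := by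
  have hc := counting hV hq (hC_of_cond hq hcond) k H.edgeFinset (Subset.refl _) hk (edgesOf S)
    (edgesOf_subset S)
  set X := edgesOf S with hX
  have he : X.card = S.coe.edgeSet.ncard := card_edgesOf S
  rw [← he]
  set v0 := (supp X).card with hv0
  set v := Fintype.card S.verts with hv
  have hv0n : v0 ≤ n := (card_le_univ _).trans hV
  have hv0v : v0 ≤ v := by
    have h : Fintype.card S.verts = (univ.filter (fun x => x ∈ S.verts)).card :=
      Fintype.card_of_subtype _ (fun x => by simp)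
    rw [hv, h]
    apply card_le_card
    intro x hx
    simpa using supp_edgesOf_sub S hx
  have h2e : v0 ≤ 2 * X.card := card_supp_le X
  have h1 : (injCount S.coe H : ℝ) ≤ (inj X H.edgeFinset : ℝ) *
      ((n - v0).descFactorial (v - v0) : ℝ) := by
    have := injCount_le_inj S
    have h3 : (Fintype.card V - v0).descFactorial (v - v0) ≤ (n - v0).descFactorial (v - v0) :=
      Nat.descFactorial_le _ (by omega)
    calc (injCount S.coe H : ℝ) ≤ ((inj X H.edgeFinset *
          (Fintype.card V - v0).descFactorial (v - v0) : ℕ) : ℝ) := by exact_mod_cast this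
      _ ≤ ((inj X H.edgeFinset * (n - v0).descFactorial (v - v0) : ℕ) : ℝ) := by
          exact_mod_cast Nat.mul_le_mul_left _ h3
      _ = _ := by push_cast; ring
  have hd : (n.descFactorial v : ℝ) =
      ((n - v0).descFactorial (v - v0) : ℝ) * (n.descFactorial v0 : ℝ) := by
    rw [← Nat.descFactorial_mul_descFactorial hv0v]
    push_cast
    ring
  have hexp : Real.exp v0 ≤ (9 : ℝ) ^ X.card := by
    have h3 : Real.exp 1 ≤ 3 := by
      have := Real.exp_one_lt_d9
      linarith
    have h4 : (v0 : ℝ) ≤ 2 * (X.card : ℝ) := by exact_mod_cast h2e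
    calc Real.exp v0 ≤ Real.exp (2 * (X.card : ℝ)) := Real.exp_le_exp.2 h4
      _ = (Real.exp 1) ^ (2 * X.card) := by
          rw [← Real.exp_nat_mul]
          push_cast
          ring_nf
      _ ≤ (3 : ℝ) ^ (2 * X.card) := pow_le_pow_left₀ (Real.exp_pos _).le h3 _
      _ = (9 : ℝ) ^ X.card := by
          rw [pow_mul]
          norm_num
  have hK : (0 : ℝ) ≤ (64 * (k : ℕ) : ℝ) * q := by positivity
  have hpw := pow_le_exp_mul_descFactorial n v0 hv0n
  calc (injCount S.coe H : ℝ) ≤ (inj X H.edgeFinset : ℝ) * ((n - v0).descFactorial (v - v0) : ℝ) := h1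
    _ ≤ ((n : ℝ) ^ v0 * ((64 * (k : ℕ) : ℝ) * q) ^ X.card) * ((n - v0).descFactorial (v - v0) : ℝ) :=
        mul_le_mul_of_nonneg_right hc (Nat.cast_nonneg _)
    _ ≤ ((Real.exp v0 * (n.descFactorial v0 : ℝ)) * ((64 * (k : ℕ) : ℝ) * q) ^ X.card) *
          ((n - v0).descFactorial (v - v0) : ℝ) := by
        apply mul_le_mul_of_nonneg_right _ (Nat.cast_nonneg _)
        exact mul_le_mul_of_nonneg_right hpw (pow_nonneg hK _)
    _ = Real.exp v0 * ((n.descFactorial v : ℝ) * ((64 * (k : ℕ) : ℝ) * q) ^ X.card) := by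
        rw [hd]
        ring
    _ ≤ (9 : ℝ) ^ X.card * ((n.descFactorial v : ℝ) * ((64 * (k : ℕ) : ℝ) * q) ^ X.card) :=
        mul_le_mul_of_nonneg_right hexp (by positivity)
    _ = (n.descFactorial v : ℝ) * ((576 * (k : ℕ) : ℝ) * q) ^ X.card := by
        have h9 : ((576 * (k : ℕ) : ℝ) * q) ^ X.card =
            (9 : ℝ) ^ X.card * ((64 * (k : ℕ) : ℝ) * q) ^ X.card := by
          rw [← mul_pow]
          congr 1
          ring
        rw [h9]
        ring

end Vale.Agent.Lib.P064
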