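import Vale.Agent.Lib.P064.Defs

/-!
Copies and injective homomorphisms: `N(G, F) * aut(F) = inj(F, G)`.
-/

open Finset
open scoped Classical

noncomputable section

set_option linter.unusedSectionVars false

namespace Vale.Agent.Lib.P064

variable {V W : Type} [Fintype V] [Fintype W]

/-- Injective homomorphisms from `F` to `G`. -/
def homSet (F : SimpleGraph W) (G : SimpleGraph V) : Finset (W → V) :=
  univ.filter fun f => Function.Injective f ∧ ∀ a b, F.Adj a b → G.Adj (f a) (f b)

/-- Number of injective homomorphisms. -/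
def injCount (F : SimpleGraph W) (G : SimpleGraph V) : ℕ := (homSet F G).card

lemma mem_homSet {F : SimpleGraph W} {G : SimpleGraph V} {f : W → V} :
    f ∈ homSet F G ↔ Function.Injective f ∧ ∀ a b, F.Adj a b → G.Adj (f a) (f b) := by
  simp [homSet]

lemma id_mem_homSet (F : SimpleGraph W) : (id : W → W) ∈ homSet F F :=
  mem_homSet.2 ⟨Function.injective_id, fun _ _ h => h⟩

lemma injCount_self_pos (F : SimpleGraph W) : 0 < injCount F F :=
  card_pos.2 ⟨id, id_mem_homSet F⟩

/-- An injective self homomorphism of a finite graph reflects adjacency. -/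
lemma adj_of_adj_self {F : SimpleGraph W} {h : W → W} (hh : h ∈ homSet F F) {a b : W}
    (hab : F.Adj (h a) (h b)) : F.Adj a b := by
  obtain ⟨hinj, hadj⟩ := mem_homSet.1 hh
  set E : Finset (Sym2 W) := F.edgeFinset with hE
  have hmaps : ∀ e ∈ E, Sym2.map h e ∈ E := by
    intro e he
    induction e using Sym2.ind with
    | _ x y =>
      have hxy : F.Adj x y := by simpa [hE] using he
      simpa [hE] using hadj x y hxy
  have hinjOn : Set.InjOn (Sym2.map h) (E : Set (Sym2 W)) :=
    (Sym2.map.injective hinj).injOn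
  have hsurj := Finset.surjOn_of_injOn_of_card_le (Sym2.map h) hmaps hinjOn le_rfl
  have hmem : s(h a, h b) ∈ (E : Set (Sym2 W)) := by
    simpa [hE] using hab
  obtain ⟨e, he, hmap⟩ := hsurj hmem
  have : e = s(a, b) := by
    apply Sym2.map.injective hinj
    rw [hmap]; rfl
  subst this
  simpa [hE] using he

/-- The image subgraph of a map. -/
def imgSub (F : SimpleGraph W) (G : SimpleGraph V) (f : W → V) : G.Subgraph where
  verts := Set.range f
  Adj x y := G.Adj x y ∧ ∃ a b, F.Adj a b ∧ f a = x ∧ f b = y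
  adj_sub := fun h => h.1
  edge_vert := by
    rintro x y ⟨-, a, b, -, rfl, -⟩
    exact ⟨a, rfl⟩
  symm := ⟨by
    rintro x y ⟨h, a, b, hab, rfl, rfl⟩
    exact ⟨h.symm, b, a, hab.symm, rfl, rfl⟩⟩

/-- The image of an injective homomorphism is a copy. -/
lemma imgSub_iso {F : SimpleGraph W} {G : SimpleGraph V} {f : W → V} (hf : f ∈ homSet F G) :
    Nonempty ((imgSub F G f).coe ≃g F) := by
  obtain ⟨hinj, hadj⟩ := mem_homSet.1 hf
  let e : W ≃ (imgSub F G f).verts := Equiv.ofBijective (fun a => ⟨f a, a, rfl⟩) (by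
    constructor
    · intro a b h
      exact hinj (congrArg Subtype.val h)
    · rintro ⟨y, a, rfl⟩
      exact ⟨a, rfl⟩)
  let τ : F ≃g (imgSub F G f).coe :=
    { toEquiv := e
      map_rel_iff' := by
        intro a b
        constructor
        · rintro ⟨-, a', b', h, h1, h2⟩
          have h1' : f a' = f a := h1
          have h2' : f b' = f b := h2
          rw [← hinj h1', ← hinj h2']
          exact h
        · intro h
          exact ⟨hadj a b h, a, b, h, rfl, rfl⟩ }
  exact ⟨τ.symm⟩

/-- A copy is the image of an injective homomorphism. -/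
lemma exists_hom_of_iso {F : SimpleGraph W} {G : SimpleGraph V} {S : G.Subgraph}
    (σ : S.coe ≃g F) : ∃ f0 ∈ homSet F G, imgSub F G f0 = S := by
  refine ⟨fun a => (σ.symm a : V), ?_, ?_⟩
  · refine mem_homSet.2 ⟨?_, ?_⟩
    · intro a b h
      exact σ.symm.injective (Subtype.ext h)
    · intro a b h
      have : S.coe.Adj (σ.symm a) (σ.symm b) := (σ.symm.map_rel_iff).2 h
      exact S.adj_sub this
  · ext x y
    · constructor
      · rintro ⟨a, rfl⟩
        exact (σ.symm a).2
      · intro hx
        refine ⟨σ ⟨x, hx⟩, ?_⟩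
        simp
    · constructor
      · rintro ⟨-, a, b, hab, rfl, rfl⟩
        have : S.coe.Adj (σ.symm a) (σ.symm b) := (σ.symm.map_rel_iff).2 hab
        exact this
      · intro hxy
        refine ⟨S.adj_sub hxy, σ ⟨x, S.edge_vert hxy⟩, σ ⟨y, S.edge_vert hxy.symm⟩, ?_, by simp, by simp⟩
        exact σ.map_rel_iff.2 hxy

/-- The homomorphisms with a given image are obtained from one of them by composing with the
self homomorphisms. -/
lemma fiber_eq_image {F : SimpleGraph W} {G : SimpleGraph V} {f0 : W → V} (hf0 : f0 ∈ homSet F G) :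
    (homSet F G).filter (fun f => imgSub F G f = imgSub F G f0) =
      (homSet F F).image (fun h => f0 ∘ h) := by
  obtain ⟨hinj0, hadj0⟩ := mem_homSet.1 hf0
  ext f
  simp only [mem_filter, mem_image]
  constructor
  · rintro ⟨hf, hfimg⟩
    obtain ⟨hinj, hadj⟩ := mem_homSet.1 hf
    have hrange : Set.range f = Set.range f0 := by
      have := congrArg SimpleGraph.Subgraph.verts hfimg
      simpa [imgSub] using this
    have hex : ∀ a, ∃ b, f0 b = f a := by
      intro a
      have : f a ∈ Set.range f0 := hrange ▸ ⟨a, rfl⟩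
      exact this
    choose h hh using hex
    refine ⟨h, mem_homSet.2 ⟨?_, ?_⟩, ?_⟩
    · intro a b hab
      apply hinj
      rw [← hh a, ← hh b, hab]
    · intro a b hab
      have h1 : (imgSub F G f).Adj (f a) (f b) := ⟨hadj a b hab, a, b, hab, rfl, rfl⟩
      rw [hfimg] at h1
      obtain ⟨-, a', b', hab', e1, e2⟩ := h1
      rw [← hh a] at e1
      rw [← hh b] at e2
      rw [← hinj0 e1, ← hinj0 e2]
      exact hab'
    · funext a
      exact hh a
  · rintro ⟨h, hh, rfl⟩
    obtain ⟨hinj, hadj⟩ := mem_homSet.1 hh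
    have hsurj : Function.Surjective h := Finite.surjective_of_injective hinj
    refine ⟨mem_homSet.2 ⟨hinj0.comp hinj, fun a b hab => hadj0 _ _ (hadj a b hab)⟩, ?_⟩
    ext x y
    · constructor
      · rintro ⟨a, rfl⟩
        exact ⟨h a, rfl⟩
      · rintro ⟨a, rfl⟩
        obtain ⟨b, rfl⟩ := hsurj a
        exact ⟨b, rfl⟩
    · constructor
      · rintro ⟨hxy, a, b, hab, rfl, rfl⟩
        exact ⟨hxy, h a, h b, hadj a b hab, rfl, rfl⟩
      · rintro ⟨hxy, a, b, hab, rfl, rfl⟩
        obtain ⟨a', rfl⟩ := hsurj a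
        obtain ⟨b', rfl⟩ := hsurj b
        exact ⟨hxy, a', b', adj_of_adj_self hh hab, rfl, rfl⟩

instance finiteSubgraph (G : SimpleGraph V) : Finite G.Subgraph := by
  apply Finite.of_injective
    (fun S : G.Subgraph => ((S.verts, fun x y => S.Adj x y) : Set V × (V → V → Prop)))
  intro S T h
  simp only [Prod.mk.injEq] at h
  ext x y
  · rw [h.1]
  · exact iff_of_eq (congrFun (congrFun h.2 x) y)

/-- `N(G, F) * aut(F) = inj(F, G)`. -/
theorem copies_mul_aut (F : SimpleGraph W) (G : SimpleGraph V) :
    copies G F * injCount F F = injCount F G := by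
  set C : Finset G.Subgraph := (Set.toFinite {S : G.Subgraph | Nonempty (S.coe ≃g F)}).toFinset with hC
  have hcopies : copies G F = C.card := by
    unfold copies
    rw [Set.ncard_eq_toFinset_card _ (Set.toFinite _)]
  have hmaps : Set.MapsTo (fun f => imgSub F G f) (homSet F G : Set (W → V)) (C : Set G.Subgraph) := by
    intro f hf
    simp only [hC, Set.Finite.coe_toFinset, Set.mem_ofPred_eq]
    exact imgSub_iso (mem_coe.1 hf)
  have hsum := Finset.card_eq_sum_card_fiberwise hmaps
  unfold injCount at *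
  rw [hsum, hcopies, ← smul_eq_mul, ← Finset.sum_const]
  apply Finset.sum_congr rfl
  intro S hS
  have hS' : Nonempty (S.coe ≃g F) := by
    simpa [hC] using hS
  obtain ⟨σ⟩ := hS'
  obtain ⟨f0, hf0, rfl⟩ := exists_hom_of_iso σ
  rw [fiber_eq_image hf0, card_image_of_injective]
  intro h h' hEq
  obtain ⟨hinj0, -⟩ := mem_homSet.1 hf0
  funext a
  exact hinj0 (congrFun hEq a)

end Vale.Agent.Lib.P064
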