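import Mathlib

/-!
Core counting lemma for the second Kahn-Kalai problem: all graphs are edge sets inside a fixed
vertex type; embeddings are total functions that are the identity off the touched vertices.
-/

open Finset
open scoped Classical

noncomputable section

set_option linter.unusedSectionVars false

namespace Vale.Agent.Lib.P064

variable {V : Type} [Fintype V]

/-- Vertices touched by a set of edges. -/
def supp (E : Finset (Sym2 V)) : Finset V := E.biUnion Sym2.toFinset

lemma mem_supp {E : Finset (Sym2 V)} {x : V} : x ∈ supp E ↔ ∃ e ∈ E, x ∈ e := by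
  simp [supp, Sym2.mem_toFinset]

lemma mem_supp_of_mem {E : Finset (Sym2 V)} {x : V} {e : Sym2 V} (he : e ∈ E) (hx : x ∈ e) :
    x ∈ supp E := mem_supp.2 ⟨e, he, hx⟩

lemma supp_mono {E F : Finset (Sym2 V)} (h : E ⊆ F) : supp E ⊆ supp F := by
  intro x hx
  obtain ⟨e, he, hxe⟩ := mem_supp.1 hx
  exact mem_supp.2 ⟨e, h he, hxe⟩

@[simp] lemma supp_empty : supp (∅ : Finset (Sym2 V)) = ∅ := by
  simp [supp]

/-- Embeddings of the graph with edge set `E` in the graph with edge set `A`. -/
def Emb (E A : Finset (Sym2 V)) : Finset (V → V) :=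
  univ.filter fun f =>
    (∀ x, x ∉ supp E → f x = x) ∧ Set.InjOn f (supp E : Set V) ∧ ∀ e ∈ E, Sym2.map f e ∈ A

/-- Number of embeddings. -/
def inj (E A : Finset (Sym2 V)) : ℕ := (Emb E A).card

lemma mem_Emb {E A : Finset (Sym2 V)} {f : V → V} :
    f ∈ Emb E A ↔ (∀ x, x ∉ supp E → f x = x) ∧ Set.InjOn f (supp E : Set V) ∧
      ∀ e ∈ E, Sym2.map f e ∈ A := by
  simp [Emb]

lemma supp_image_map (E : Finset (Sym2 V)) (f : V → V) :
    supp (E.image (Sym2.map f)) = (supp E).image f := by
  ext y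
  simp only [mem_supp, mem_image]
  constructor
  · rintro ⟨e', ⟨e, he, rfl⟩, hy⟩
    obtain ⟨x, hx, rfl⟩ := Sym2.mem_map.1 hy
    exact ⟨x, ⟨e, he, hx⟩, rfl⟩
  · rintro ⟨x, ⟨e, he, hxe⟩, rfl⟩
    exact ⟨Sym2.map f e, ⟨e, he, rfl⟩, Sym2.mem_map.2 ⟨x, hxe, rfl⟩⟩

lemma map_inj_of_injOn {f : V → V} {s : Finset V} (hf : Set.InjOn f (s : Set V)) {e e' : Sym2 V}
    (he : ∀ x ∈ e, x ∈ s) (he' : ∀ x ∈ e', x ∈ s) (h : Sym2.map f e = Sym2.map f e') : e = e' := by
  induction e using Sym2.ind with
  | _ a b =>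
    induction e' using Sym2.ind with
    | _ c d =>
      have ha : a ∈ s := he a (by simp)
      have hb : b ∈ s := he b (by simp)
      have hc : c ∈ s := he' c (by simp)
      have hd : d ∈ s := he' d (by simp)
      simp only [Sym2.map_mk, Sym2.eq_iff] at h
      rcases h with ⟨h1, h2⟩ | ⟨h1, h2⟩
      · rw [hf ha hc h1, hf hb hd h2]
      · rw [hf ha hd h1, hf hb hc h2]
        exact Sym2.eq_swap

lemma card_image_map {E : Finset (Sym2 V)} {f : V → V} (hf : Set.InjOn f (supp E : Set V)) :
    (E.image (Sym2.map f)).card = E.card := by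
  apply Finset.card_image_of_injOn
  intro e he e' he' h
  exact map_inj_of_injOn hf (fun x hx => mem_supp_of_mem he hx)
    (fun x hx => mem_supp_of_mem he' hx) h

lemma card_supp_le (N : Finset (Sym2 V)) : (supp N).card ≤ 2 * N.card := by
  unfold supp
  refine (card_biUnion_le_card_mul _ _ 2 ?_).trans (by omega)
  intro e _
  induction e using Sym2.ind with
  | _ a b =>
    have : (s(a, b) : Sym2 V).toFinset ⊆ {a, b} := by
      intro x hx
      simpa [Sym2.mem_toFinset] using hx
    exact (card_le_card this).trans Finset.card_le_two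

/-- Inverse of `f` on `s`, the identity off `f '' s`. -/
def invOn (f : V → V) (s : Finset V) (y : V) : V :=
  if h : ∃ x ∈ s, f x = y then h.choose else y

lemma invOn_spec {f : V → V} {s : Finset V} {y : V} (h : ∃ x ∈ s, f x = y) :
    invOn f s y ∈ s ∧ f (invOn f s y) = y := by
  unfold invOn
  rw [dif_pos h]
  exact h.choose_spec

lemma invOn_apply {f : V → V} {s : Finset V} (hf : Set.InjOn f (s : Set V)) {x : V} (hx : x ∈ s) :
    invOn f s (f x) = x := by
  have h : ∃ y ∈ s, f y = f x := ⟨x, hx, rfl⟩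
  obtain ⟨h1, h2⟩ := invOn_spec h
  exact hf h1 hx h2

lemma inj_empty_left (A : Finset (Sym2 V)) : inj (∅ : Finset (Sym2 V)) A = 1 := by
  unfold inj
  have : Emb (∅ : Finset (Sym2 V)) A = {id} := by
    ext f
    simp only [mem_Emb, supp_empty, mem_singleton]
    constructor
    · rintro ⟨h, -, -⟩
      funext x
      simpa using h x (by simp)
    · rintro rfl
      simp
  rw [this]
  simp

lemma Emb_eq_of_agree {E A : Finset (Sym2 V)} {f g : V → V} (hf : f ∈ Emb E A) (hg : g ∈ Emb E A)
    (h : ∀ x ∈ supp E, f x = g x) : f = g := by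
  funext x
  by_cases hx : x ∈ supp E
  · exact h x hx
  · rw [(mem_Emb.1 hf).1 x hx, (mem_Emb.1 hg).1 x hx]

/-! ### Counting copies -/

lemma exists_preimage_of_image_eq {U : Finset (Sym2 V)} {f f0 : V → V}
    (hF : U.image (Sym2.map f) = U.image (Sym2.map f0)) {x : V} (hx : x ∈ supp U) :
    ∃ y ∈ supp U, f0 y = f x := by
  obtain ⟨e, he, hxe⟩ := mem_supp.1 hx
  have h1 : Sym2.map f e ∈ U.image (Sym2.map f0) := by
    rw [← hF]; exact mem_image_of_mem _ he
  obtain ⟨e', he', h2⟩ := mem_image.1 h1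
  have h3 : f x ∈ Sym2.map f0 e' := by
    rw [h2]; exact Sym2.mem_map.2 ⟨x, hxe, rfl⟩
  obtain ⟨y, hy, h4⟩ := Sym2.mem_map.1 h3
  exact ⟨y, mem_supp_of_mem he' hy, h4⟩

/-- Every embedding of `U` in `A` has one of at most `2 ^ A.card` images, and each image has at most
`inj U U` embeddings. -/
lemma inj_le_two_pow_mul (U A : Finset (Sym2 V)) : inj U A ≤ inj U U * 2 ^ A.card := by
  unfold inj
  set F : (V → V) → Finset (Sym2 V) := fun f => U.image (Sym2.map f) with hF
  have h1 : (Emb U A).image F ⊆ A.powerset := by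
    intro b hb
    obtain ⟨f, hf, rfl⟩ := mem_image.1 hb
    rw [mem_powerset]
    intro e he
    obtain ⟨e0, he0, rfl⟩ := mem_image.1 he
    exact (mem_Emb.1 hf).2.2 e0 he0
  have h2 : ((Emb U A).image F).card ≤ 2 ^ A.card := by
    simpa using card_le_card h1
  refine (Finset.card_le_mul_card_image (f := F) _ (Emb U U).card ?_).trans
    (Nat.mul_le_mul_left _ h2)
  intro b hb
  obtain ⟨f0, hf0, rfl⟩ := mem_image.1 hb
  obtain ⟨-, hf0inj, -⟩ := mem_Emb.1 hf0
  set h : (V → V) → (V → V) := fun f x => if x ∈ supp U then invOn f0 (supp U) (f x) else x with hh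
  have key : ∀ f ∈ (Emb U A), F f = F f0 → ∀ x ∈ supp U, h f x ∈ supp U ∧ f0 (h f x) = f x := by
    intro f _ hfF x hx
    have := invOn_spec (exists_preimage_of_image_eq hfF hx)
    simpa [hh, hx] using this
  apply Finset.card_le_card_of_injOn h
  · intro f hf
    obtain ⟨hfA, hfF⟩ := mem_filter.1 (mem_coe.1 hf)
    have hkey := key f hfA hfF
    obtain ⟨-, hfinj, hfe⟩ := mem_Emb.1 hfA
    refine mem_coe.2 (mem_Emb.2 ⟨?_, ?_, ?_⟩)
    · intro x hx
      simp [hh, hx]
    · intro x hx y hy hxy
      have h1 := (hkey x hx).2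
      have h2 := (hkey y hy).2
      rw [hxy] at h1
      exact hfinj hx hy (h1.symm.trans h2)
    · intro e he
      have h3 : Sym2.map f e ∈ U.image (Sym2.map f0) := by
        have : F f = F f0 := hfF
        rw [hF] at this
        simp only at this
        rw [← this]; exact mem_image_of_mem _ he
      obtain ⟨e', he', h4⟩ := mem_image.1 h3
      have h5 : Sym2.map f0 (Sym2.map (h f) e) = Sym2.map f e := by
        rw [← Function.comp_apply (f := Sym2.map f0), ← Sym2.map_comp]
        apply Sym2.map_congr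
        intro x hx
        exact (hkey x (mem_supp_of_mem he hx)).2
      have h6 : Sym2.map (h f) e = e' := by
        apply map_inj_of_injOn hf0inj (s := supp U)
        · intro x hx
          obtain ⟨y, hy, rfl⟩ := Sym2.mem_map.1 hx
          exact (hkey y (mem_supp_of_mem he hy)).1
        · intro x hx
          exact mem_supp_of_mem he' hx
        · rw [h5, h4]
      rw [h6]; exact he'
  · intro f hf f' hf' hEq
    have hf1 := mem_filter.1 (mem_coe.1 hf)
    have hf2 := mem_filter.1 (mem_coe.1 hf')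
    apply Emb_eq_of_agree hf1.1 hf2.1
    intro x hx
    rw [← (key f hf1.1 hf1.2 x hx).2, ← (key f' hf2.1 hf2.2 x hx).2, hEq]

end Vale.Agent.Lib.P064
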