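import Mathlib

/-!
Definitions for the second Kahn-Kalai problem.
-/

noncomputable section

namespace Vale.Agent.Lib.P064

/-- `N(G, F)`: the number of subgraphs of `G` isomorphic to `F`. -/
def copies {V W : Type} (G : SimpleGraph V) (F : SimpleGraph W) : ℕ :=
  Set.ncard {S : G.Subgraph | Nonempty (S.coe ≃g F)}

/-- The probability of the graph `G` under the random graph `G(n, p)`. -/
def gnpProb (n : ℕ) (p : ℝ) (G : SimpleGraph (Fin n)) : ℝ :=
  p ^ G.edgeSet.ncard * (1 - p) ^ (n.choose 2 - G.edgeSet.ncard)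

/-- `E N(G(n, p), F)`: the expected number of copies of `F` in `G(n, p)`. -/
def expCopies (n : ℕ) (p : ℝ) {W : Type} (F : SimpleGraph W) : ℝ :=
  ∑ G : SimpleGraph (Fin n), gnpProb n p G * (copies G F : ℝ)

/-- The expectation threshold `p_E(n, H)`. -/
def pE (n : ℕ) {V : Type} (H : SimpleGraph V) : ℝ :=
  sInf {p : ℝ | p ∈ Set.Icc (0 : ℝ) 1 ∧ ∀ F : H.Subgraph, (1 / 2 : ℝ) ≤ expCopies n p F.coe}

/-- The threshold `p~_E(n, H)`. -/
def pTildeE (n : ℕ) {V : Type} (H : SimpleGraph V) : ℝ :=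
  sInf {p : ℝ | p ∈ Set.Icc (0 : ℝ) 1 ∧
    ∀ F : H.Subgraph, (copies H F.coe : ℝ) / 2 ≤ expCopies n p F.coe}

end Vale.Agent.Lib.P064
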