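import Vale.Agent.Lib.P064.Bridge

/-!
The key lemma with `L = O(log n)` and the comparison of thresholds.
-/

open Finset
open scoped Classical

noncomputable section

set_option linter.unusedSectionVars false

namespace Vale.Agent.Lib.P064

variable {V : Type} [Fintype V] {H : SimpleGraph V}

lemma injCount_le_descFactorial {W : Type} [Fintype W] (F : SimpleGraph W) (G : SimpleGraph V) :
    injCount F G ≤ (Fintype.card V).descFactorial (Fintype.card W) := by
  have hsub : homSet F G ⊆ (univ : Finset (W ↪ V)).image (fun e : W ↪ V => (⇑e : W → V)) := by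
    intro f hf
    exact mem_image.2 ⟨⟨f, (mem_homSet.1 hf).1⟩, mem_univ _, rfl⟩
  calc injCount F G ≤ ((univ : Finset (W ↪ V)).image (fun e : W ↪ V => (⇑e : W → V))).card :=
        card_le_card hsub
    _ ≤ (univ : Finset (W ↪ V)).card := card_image_le
    _ = _ := by rw [card_univ, Fintype.card_embedding_eq]

lemma aut_le_descFactorial {n : ℕ} (hV : Fintype.card V ≤ n) (S : H.Subgraph) [Fintype S.verts] :
    injCount S.coe S.coe ≤ n.descFactorial (Fintype.card S.verts) := by
  refine (injCount_le_descFactorial S.coe S.coe).trans (Nat.descFactorial_le _ ?_)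
  exact (Fintype.card_subtype_le _).trans hV

/-- Key lemma: if all subgraphs of `H` have expected count at least one at density `q` then
`N(H, F)` is at most the expected count at density `L q`. -/
theorem key_lemma {n : ℕ} (hV : Fintype.card V ≤ n) {q : ℝ} (hq : 0 < q)
    (hcond : ∀ F : H.Subgraph, 1 ≤ expCopies n q F.coe) (k : ℕ) (hk : H.edgeFinset.card < 4 ^ k)
    (S : H.Subgraph) {L : ℝ} (hL : (576 * (k : ℕ) : ℝ) ≤ L) :
    (copies H S.coe : ℝ) ≤ expCopies n (min 1 (L * q)) S.coe := by
  letI : Fintype S.verts := Fintype.ofFinite _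
  have haut : (0 : ℝ) < (injCount S.coe S.coe : ℝ) := by
    exact_mod_cast injCount_self_pos S.coe
  have h1 : (copies H S.coe : ℝ) * (injCount S.coe S.coe : ℝ) = (injCount S.coe H : ℝ) := by
    exact_mod_cast copies_mul_aut S.coe H
  have h2 := expCopies_mul_aut n (min 1 (L * q)) S.coe
  refine le_of_mul_le_mul_right ?_ haut
  rw [h1, h2]
  by_cases hLq : L * q ≤ 1
  · rw [min_eq_right hLq]
    have h3 := injCount_bound hV hq hcond k hk S
    refine h3.trans (mul_le_mul_of_nonneg_left ?_ (Nat.cast_nonneg _))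
    apply pow_le_pow_left₀ (by positivity)
    exact mul_le_mul_of_nonneg_right hL hq.le
  · rw [min_eq_left (le_of_not_ge hLq), one_pow, mul_one]
    have h3 := injCount_le_descFactorial S.coe H
    have h4 : (Fintype.card V).descFactorial (Fintype.card S.verts) ≤
        n.descFactorial (Fintype.card S.verts) := Nat.descFactorial_le _ hV
    exact_mod_cast h3.trans h4

lemma card_edges_lt {n : ℕ} (hn : 2 ≤ n) (hV : Fintype.card V ≤ n) :
    H.edgeFinset.card < 4 ^ Nat.clog 2 n := by
  have h1 : H.edgeFinset.card ≤ (Fintype.card V).choose 2 :=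
    SimpleGraph.card_edgeFinset_le_card_choose_two
  have h2 : (Fintype.card V).choose 2 ≤ n.choose 2 := Nat.choose_le_choose 2 hV
  have h3 : n.choose 2 < n * n := by
    rw [Nat.choose_two_right]
    refine lt_of_le_of_lt (Nat.div_le_self _ _) ?_
    exact Nat.mul_lt_mul_of_pos_left (by omega) (by omega)
  have h4 : n ≤ 2 ^ Nat.clog 2 n := Nat.le_pow_clog (by norm_num) n
  have h5 : n * n ≤ 4 ^ Nat.clog 2 n := by
    have : (4 : ℕ) ^ Nat.clog 2 n = 2 ^ Nat.clog 2 n * 2 ^ Nat.clog 2 n := by
      rw [← mul_pow]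
      norm_num
    rw [this]
    exact Nat.mul_le_mul h4 h4
  omega

lemma clog_le_log {n : ℕ} (hn : 2 ≤ n) :
    (576 * (Nat.clog 2 n : ℕ) : ℝ) ≤ 1700 * Real.log n := by
  have hn1 : 1 < n := by omega
  have h1 : 2 ^ (Nat.clog 2 n).pred < n := Nat.pow_pred_clog_lt_self (by norm_num) hn1
  have hpos : 0 < Nat.clog 2 n := Nat.clog_pos (by norm_num) hn
  set k := Nat.clog 2 n with hk
  have h2 : ((2 : ℝ) ^ (k - 1)) ≤ (n : ℝ) := by
    have : 2 ^ (k - 1) ≤ n := by
      have e : k.pred = k - 1 := rfl
      rw [e] at h1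
      exact h1.le
    exact_mod_cast this
  have h3 : ((k - 1 : ℕ) : ℝ) * Real.log 2 ≤ Real.log n := by
    rw [← Real.log_pow]
    exact Real.log_le_log (by positivity) h2
  have hk1 : ((k - 1 : ℕ) : ℝ) = (k : ℝ) - 1 := by
    rw [Nat.cast_sub hpos]
    simp
  rw [hk1] at h3
  have hlog2 : Real.log 2 ≤ Real.log n := by
    apply Real.log_le_log (by norm_num)
    exact_mod_cast hn
  have hl := Real.log_two_gt_d9
  have hk0 : (0 : ℝ) ≤ (k : ℝ) := Nat.cast_nonneg _
  nlinarith

/-- From expected counts `1/2` at `p` to expected counts `1` at `min 1 (2 p)`. -/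
lemma cond_of_half {n : ℕ} (hV : Fintype.card V ≤ n) {p : ℝ} (hp : 0 < p)
    (hhalf : ∀ F : H.Subgraph, (1 / 2 : ℝ) ≤ expCopies n p F.coe) (S : H.Subgraph) :
    1 ≤ expCopies n (min 1 (2 * p)) S.coe := by
  letI : Fintype S.verts := Fintype.ofFinite _
  have haut : (0 : ℝ) < (injCount S.coe S.coe : ℝ) := by
    exact_mod_cast injCount_self_pos S.coe
  have hd : (injCount S.coe S.coe : ℝ) ≤ (n.descFactorial (Fintype.card S.verts) : ℝ) := by
    exact_mod_cast aut_le_descFactorial hV S
  have h2 := expCopies_mul_aut n (min 1 (2 * p)) S.coe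
  have hgoal : 1 * (injCount S.coe S.coe : ℝ) ≤
      expCopies n (min 1 (2 * p)) S.coe * (injCount S.coe S.coe : ℝ) := by
    rw [h2, one_mul]
    by_cases h2p : 2 * p ≤ 1
    · rw [min_eq_right h2p]
      rcases Nat.eq_zero_or_pos S.coe.edgeSet.ncard with he | he
      · rw [he, pow_zero, mul_one]
        exact hd
      · have h3 := expCopies_mul_aut n p S.coe
        have h4 := hhalf S
        have h5 : (injCount S.coe S.coe : ℝ) ≤
            2 * ((n.descFactorial (Fintype.card S.verts) : ℝ) * p ^ S.coe.edgeSet.ncard) := by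
          rw [← h3]
          nlinarith
        have h6 : 2 * p ^ S.coe.edgeSet.ncard ≤ (2 * p) ^ S.coe.edgeSet.ncard := by
          rw [mul_pow]
          apply mul_le_mul_of_nonneg_right _ (pow_nonneg hp.le _)
          calc (2 : ℝ) = 2 ^ 1 := by norm_num
            _ ≤ 2 ^ S.coe.edgeSet.ncard := pow_le_pow_right₀ (by norm_num) he
        have h7 : (0 : ℝ) ≤ (n.descFactorial (Fintype.card S.verts) : ℝ) := Nat.cast_nonneg _
        calc (injCount S.coe S.coe : ℝ)
            ≤ 2 * ((n.descFactorial (Fintype.card S.verts) : ℝ) * p ^ S.coe.edgeSet.ncard) := h5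
          _ = (n.descFactorial (Fintype.card S.verts) : ℝ) * (2 * p ^ S.coe.edgeSet.ncard) := by
              ring
          _ ≤ _ := mul_le_mul_of_nonneg_left h6 h7
    · rw [min_eq_left (le_of_not_ge h2p), one_pow, mul_one]
      exact hd
  exact le_of_mul_le_mul_right hgoal haut

/-- `p~_E` is at most `3400 log n` times `p_E`. -/
theorem pTilde_le {n : ℕ} (hn : 2 ≤ n) (hV : Fintype.card V ≤ n) (hE : H.edgeSet.Nonempty) :
    pTildeE n H ≤ 3400 * Real.log n * pE n H := by
  have hlog : 0 < Real.log n := Real.log_pos (by exact_mod_cast (by omega : 1 < n))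
  have hne : {p : ℝ | p ∈ Set.Icc (0 : ℝ) 1 ∧
      ∀ F : H.Subgraph, (1 / 2 : ℝ) ≤ expCopies n p F.coe}.Nonempty := by
    refine ⟨1, ⟨le_rfl.trans' zero_le_one, le_rfl⟩, ?_⟩
    intro S
    letI : Fintype S.verts := Fintype.ofFinite _
    have haut : (0 : ℝ) < (injCount S.coe S.coe : ℝ) := by
      exact_mod_cast injCount_self_pos S.coe
    have hd : (injCount S.coe S.coe : ℝ) ≤ (n.descFactorial (Fintype.card S.verts) : ℝ) := by
      exact_mod_cast aut_le_descFactorial hV S
    have h2 := expCopies_mul_aut n 1 S.coe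
    rw [one_pow, mul_one] at h2
    have : 1 * (injCount S.coe S.coe : ℝ) ≤ expCopies n 1 S.coe * (injCount S.coe S.coe : ℝ) := by
      rw [h2, one_mul]
      exact hd
    have := le_of_mul_le_mul_right this haut
    linarith
  have hmain : ∀ p ∈ {p : ℝ | p ∈ Set.Icc (0 : ℝ) 1 ∧
      ∀ F : H.Subgraph, (1 / 2 : ℝ) ≤ expCopies n p F.coe},
      pTildeE n H / (3400 * Real.log n) ≤ p := by
    rintro p ⟨⟨hp0, hp1⟩, hhalf⟩
    rw [div_le_iff₀ (by positivity)]
    have hp : 0 < p := by
      rcases hp0.lt_or_eq with h | h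
      · exact h
      · exfalso
        subst h
        have h1 := hhalf ⊤
        letI : Fintype (⊤ : H.Subgraph).verts := Fintype.ofFinite _
        have h2 := expCopies_mul_aut n 0 (⊤ : H.Subgraph).coe
        have he : (⊤ : H.Subgraph).coe.edgeSet.ncard ≠ 0 := by
          rw [← card_edgesOf]
          obtain ⟨e, he⟩ := hE
          apply card_ne_zero_of_mem (a := e)
          rw [mem_edgesOf]
          simpa using he
        rw [zero_pow he, mul_zero] at h2
        have haut : (0 : ℝ) < (injCount (⊤ : H.Subgraph).coe (⊤ : H.Subgraph).coe : ℝ) := by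
          exact_mod_cast injCount_self_pos _
        have h3 := mul_pos (lt_of_lt_of_le (by norm_num) h1) haut
        rw [h2] at h3
        exact lt_irrefl _ h3
    set q := min 1 (2 * p) with hq
    have hq0 : 0 < q := lt_min one_pos (by positivity)
    have hq2 : q ≤ 2 * p := min_le_right _ _
    have hcond : ∀ F : H.Subgraph, 1 ≤ expCopies n q F.coe := cond_of_half hV hp hhalf
    have hkey : ∀ F : H.Subgraph,
        (copies H F.coe : ℝ) ≤ expCopies n (min 1 ((1700 * Real.log n) * q)) F.coe :=
      fun F => key_lemma hV hq0 hcond _ (card_edges_lt hn hV) F (clog_le_log hn)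
    have hmem : min 1 ((1700 * Real.log n) * q) ∈ {p : ℝ | p ∈ Set.Icc (0 : ℝ) 1 ∧
        ∀ F : H.Subgraph, (copies H F.coe : ℝ) / 2 ≤ expCopies n p F.coe} := by
      refine ⟨⟨le_min zero_le_one (by positivity), min_le_left _ _⟩, ?_⟩
      intro F
      have : (0 : ℝ) ≤ (copies H F.coe : ℝ) := Nat.cast_nonneg _
      linarith [hkey F]
    have hle : pTildeE n H ≤ min 1 ((1700 * Real.log n) * q) :=
      csInf_le ⟨0, fun x hx => hx.1.1⟩ hmem
    have h2 : (1700 * Real.log n) * q ≤ (1700 * Real.log n) * (2 * p) :=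
      mul_le_mul_of_nonneg_left hq2 (by positivity)
    calc pTildeE n H ≤ min 1 ((1700 * Real.log n) * q) := hle
      _ ≤ (1700 * Real.log n) * q := min_le_right _ _
      _ ≤ (1700 * Real.log n) * (2 * p) := h2
      _ = p * (3400 * Real.log n) := by ring
  have h := le_csInf hne hmain
  have hpos : 0 < 3400 * Real.log n := by positivity
  rw [div_le_iff₀ hpos] at h
  unfold pE
  linarith

end Vale.Agent.Lib.P064
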