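import Vale.Agent.Lib.P064.Core

/-!
Overlap patterns of a pair (embedding of `U`, embedding of `X`).
-/

open Finset
open scoped Classical

noncomputable section

set_option linter.unusedSectionVars false

namespace Vale.Agent.Lib.P064

variable {V : Type} [Fintype V]

/-- Edges of `X` whose image under `φ` is not in the image of `U` under `ι`. -/
def newE (U X : Finset (Sym2 V)) (ι φ : V → V) : Finset (Sym2 V) :=
  X.filter fun e => Sym2.map φ e ∉ U.image (Sym2.map ι)

/-- Vertices of `X` whose image under `φ` is not in the image of `supp U` under `ι`. -/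
def newV (U X : Finset (Sym2 V)) (ι φ : V → V) : Finset V :=
  (supp X).filter fun x => φ x ∉ (supp U).image ι

/-- The overlap map. -/
def gOf (U X : Finset (Sym2 V)) (ι φ : V → V) : V → V :=
  fun x => if x ∈ supp X \ newV U X ι φ then invOn ι (supp U) (φ x) else x

variable {U X A : Finset (Sym2 V)} {ι φ : V → V}

lemma newE_subset : newE U X ι φ ⊆ X := filter_subset _ _

lemma newV_subset : newV U X ι φ ⊆ supp X := filter_subset _ _

lemma mem_image_of_old {e : Sym2 V} (h : Sym2.map φ e ∈ U.image (Sym2.map ι)) {x : V} (hx : x ∈ e) :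
    φ x ∈ (supp U).image ι := by
  obtain ⟨e', he', h2⟩ := mem_image.1 h
  have h3 : φ x ∈ Sym2.map ι e' := by
    rw [h2]; exact Sym2.mem_map.2 ⟨x, hx, rfl⟩
  obtain ⟨y, hy, h4⟩ := Sym2.mem_map.1 h3
  exact mem_image.2 ⟨y, mem_supp_of_mem he' hy, h4⟩

lemma newV_subset_supp_newE : newV U X ι φ ⊆ supp (newE U X ι φ) := by
  intro x hx
  obtain ⟨hxX, hxn⟩ := mem_filter.1 hx
  obtain ⟨e, he, hxe⟩ := mem_supp.1 hxX
  refine mem_supp.2 ⟨e, mem_filter.2 ⟨he, fun h => hxn (mem_image_of_old h hxe)⟩, hxe⟩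

lemma supp_old_subset : supp (X \ newE U X ι φ) ⊆ supp X \ newV U X ι φ := by
  intro x hx
  obtain ⟨e, he, hxe⟩ := mem_supp.1 hx
  obtain ⟨heX, hen⟩ := mem_sdiff.1 he
  refine mem_sdiff.2 ⟨mem_supp_of_mem heX hxe, fun hv => ?_⟩
  obtain ⟨-, hxn⟩ := mem_filter.1 hv
  apply hxn
  apply mem_image_of_old (e := e) _ hxe
  by_contra hc
  exact hen (mem_filter.2 ⟨heX, hc⟩)

lemma gOf_spec {x : V} (hx : x ∈ supp X \ newV U X ι φ) :
    gOf U X ι φ x ∈ supp U ∧ ι (gOf U X ι φ x) = φ x := by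
  have h1 : φ x ∈ (supp U).image ι := by
    obtain ⟨hxX, hxn⟩ := mem_sdiff.1 hx
    by_contra hc
    exact hxn (mem_filter.2 ⟨hxX, hc⟩)
  obtain ⟨y, hy, hy2⟩ := mem_image.1 h1
  have h2 : ∃ y ∈ supp U, ι y = φ x := ⟨y, hy, hy2⟩
  have := invOn_spec h2
  simpa [gOf, hx] using this

/-- The possible overlap maps of a given pattern. -/
def Gset (U X N : Finset (Sym2 V)) (R : Finset V) : Finset (V → V) :=
  univ.filter fun g => (∀ x, x ∉ supp X \ R → g x = x) ∧ Set.InjOn g (supp X \ R : Finset V) ∧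
    (∀ x ∈ supp X \ R, g x ∈ supp U) ∧ ∀ e ∈ X \ N, Sym2.map g e ∈ U

lemma mem_Gset {N : Finset (Sym2 V)} {R : Finset V} {g : V → V} :
    g ∈ Gset U X N R ↔ (∀ x, x ∉ supp X \ R → g x = x) ∧ Set.InjOn g (supp X \ R : Finset V) ∧
    (∀ x ∈ supp X \ R, g x ∈ supp U) ∧ ∀ e ∈ X \ N, Sym2.map g e ∈ U := by
  simp [Gset]

lemma gOf_mem_Gset (hι : ι ∈ Emb U A) (hφ : φ ∈ Emb X A) :
    gOf U X ι φ ∈ Gset U X (newE U X ι φ) (newV U X ι φ) := by
  obtain ⟨-, hιinj, -⟩ := mem_Emb.1 hι
  obtain ⟨-, hφinj, -⟩ := mem_Emb.1 hφ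
  refine mem_Gset.2 ⟨?_, ?_, fun x hx => (gOf_spec hx).1, ?_⟩
  · intro x hx
    simp [gOf, hx]
  · intro x hx y hy hxy
    have hx' := mem_coe.1 hx
    have hy' := mem_coe.1 hy
    have h1 := (gOf_spec hx').2
    have h2 := (gOf_spec hy').2
    rw [hxy] at h1
    exact hφinj (mem_sdiff.1 hx').1 (mem_sdiff.1 hy').1 (h1.symm.trans h2)
  · intro e he
    obtain ⟨heX, hen⟩ := mem_sdiff.1 he
    have hold : Sym2.map φ e ∈ U.image (Sym2.map ι) := by
      by_contra hc
      exact hen (mem_filter.2 ⟨heX, hc⟩)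
    obtain ⟨e', he', h2⟩ := mem_image.1 hold
    have hxe : ∀ x ∈ e, x ∈ supp X \ newV U X ι φ := fun x hx =>
      supp_old_subset (mem_supp.2 ⟨e, he, hx⟩)
    have h5 : Sym2.map ι (Sym2.map (gOf U X ι φ) e) = Sym2.map φ e := by
      rw [← Function.comp_apply (f := Sym2.map ι), ← Sym2.map_comp]
      apply Sym2.map_congr
      intro x hx
      exact (gOf_spec (hxe x hx)).2
    have h6 : Sym2.map (gOf U X ι φ) e = e' := by
      apply map_inj_of_injOn hιinj (s := supp U)
      · intro x hx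
        obtain ⟨y, hy, rfl⟩ := Sym2.mem_map.1 hx
        exact (gOf_spec (hxe y hy)).1
      · intro x hx
        exact mem_supp_of_mem he' hx
      · rw [h5, h2]
    rw [h6]; exact he'

/-- The number of overlap maps of a pattern. -/
lemma card_Gset_le {N : Finset (Sym2 V)} {R : Finset V} (hJ : supp (X \ N) ⊆ supp X \ R) :
    (Gset U X N R).card ≤
      inj (X \ N) U * (Fintype.card V) ^ ((supp X \ R).card - (supp (X \ N)).card) := by
  set J := X \ N with hJdef
  set O := supp X \ R with hO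
  set S := O \ supp J with hS
  have hcardS : S.card = O.card - (supp J).card := by
    rw [hS, card_sdiff_of_subset hJ]
  have hsize : ((Emb J U) ×ˢ (univ : Finset (S → V))).card =
      inj J U * (Fintype.card V) ^ (O.card - (supp J).card) := by
    rw [card_product, card_univ, Fintype.card_fun, Fintype.card_coe, hcardS]
    rfl
  rw [← hsize]
  apply Finset.card_le_card_of_injOn
    (fun g => ((fun x => if x ∈ supp J then g x else x), (fun x : S => g x)))
  · intro g hg
    obtain ⟨h1, h2, h3, h4⟩ := mem_Gset.1 (mem_coe.1 hg)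
    refine mem_coe.2 (mem_product.2 ⟨mem_Emb.2 ⟨?_, ?_, ?_⟩, mem_univ _⟩)
    · intro x hx
      simp [hx]
    · intro x hx y hy hxy
      have hx' := mem_coe.1 hx
      have hy' := mem_coe.1 hy
      simp only [hx', hy', if_true] at hxy
      exact h2 (mem_coe.2 (hJ hx')) (mem_coe.2 (hJ hy')) hxy
    · intro e he
      have : Sym2.map (fun x => if x ∈ supp J then g x else x) e = Sym2.map g e := by
        apply Sym2.map_congr
        intro x hx
        simp [mem_supp_of_mem he hx]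
      rw [this]
      exact h4 e he
  · intro g hg g' hg' hEq
    obtain ⟨h1, -, -, -⟩ := mem_Gset.1 (mem_coe.1 hg)
    obtain ⟨h1', -, -, -⟩ := mem_Gset.1 (mem_coe.1 hg')
    simp only [Prod.mk.injEq] at hEq
    obtain ⟨hE1, hE2⟩ := hEq
    funext x
    by_cases hxJ : x ∈ supp J
    · have := congrFun hE1 x
      simpa [hxJ] using this
    · by_cases hxO : x ∈ O
      · have hxS : x ∈ S := mem_sdiff.2 ⟨hxO, hxJ⟩
        exact congrFun hE2 ⟨x, hxS⟩
      · rw [h1 x hxO, h1' x hxO]

/-- Pairs whose edges are all old: `φ` factors through an embedding of `X` in `U`. -/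
lemma card_old_pairs_le :
    (((Emb U A) ×ˢ (Emb X A)).filter fun p => newE U X p.1 p.2 = ∅).card ≤ inj U A * inj X U := by
  unfold inj
  rw [← card_product]
  apply Finset.card_le_card_of_injOn (fun p => (p.1, gOf U X p.1 p.2))
  · intro p hp
    obtain ⟨hp1, hp2⟩ := mem_filter.1 (mem_coe.1 hp)
    obtain ⟨hι, hφ⟩ := mem_product.1 hp1
    have hV : newV U X p.1 p.2 = ∅ := by
      have := newV_subset_supp_newE (U := U) (X := X) (ι := p.1) (φ := p.2)
      rw [hp2, supp_empty] at this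
      exact subset_empty.1 this
    have hg := gOf_mem_Gset hι hφ
    rw [hp2, hV] at hg
    obtain ⟨h1, h2, -, h4⟩ := mem_Gset.1 hg
    refine mem_coe.2 (mem_product.2 ⟨hι, mem_Emb.2 ⟨?_, ?_, ?_⟩⟩)
    · intro x hx
      exact h1 x (by simpa using hx)
    · simpa using h2
    · intro e he
      exact h4 e (by simpa using he)
  · intro p hp p' hp' hEq
    obtain ⟨hp1, hp2⟩ := mem_filter.1 (mem_coe.1 hp)
    obtain ⟨hp1', hp2'⟩ := mem_filter.1 (mem_coe.1 hp')
    obtain ⟨hι, hφ⟩ := mem_product.1 hp1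
    obtain ⟨hι', hφ'⟩ := mem_product.1 hp1'
    simp only [Prod.mk.injEq] at hEq
    obtain ⟨hE1, hE2⟩ := hEq
    have hV : newV U X p.1 p.2 = ∅ := by
      have := newV_subset_supp_newE (U := U) (X := X) (ι := p.1) (φ := p.2)
      rw [hp2, supp_empty] at this
      exact subset_empty.1 this
    have hV' : newV U X p'.1 p'.2 = ∅ := by
      have := newV_subset_supp_newE (U := U) (X := X) (ι := p'.1) (φ := p'.2)
      rw [hp2', supp_empty] at this
      exact subset_empty.1 this
    refine Prod.ext hE1 (Emb_eq_of_agree hφ hφ' ?_)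
    intro x hx
    have h1 := (gOf_spec (U := U) (X := X) (ι := p.1) (φ := p.2) (x := x)
      (by rw [hV]; simpa using hx)).2
    have h2 := (gOf_spec (U := U) (X := X) (ι := p'.1) (φ := p'.2) (x := x)
      (by rw [hV']; simpa using hx)).2
    rw [← h1, ← h2, hE2, hE1]

/-! ### The fibre of a pattern injects into the embeddings of the union -/

/-- The union graph of a pair. -/
def unionG (U X : Finset (Sym2 V)) (ι φ : V → V) : Finset (Sym2 V) :=
  U.image (Sym2.map ι) ∪ X.image (Sym2.map φ)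

lemma unionG_subset (hι : ι ∈ Emb U A) (hφ : φ ∈ Emb X A) : unionG U X ι φ ⊆ A := by
  intro e he
  obtain h | h := mem_union.1 he
  · obtain ⟨e0, he0, rfl⟩ := mem_image.1 h
    exact (mem_Emb.1 hι).2.2 e0 he0
  · obtain ⟨e0, he0, rfl⟩ := mem_image.1 h
    exact (mem_Emb.1 hφ).2.2 e0 he0

lemma supp_unionG : supp (unionG U X ι φ) = (supp U).image ι ∪ (supp X).image φ := by
  unfold unionG
  rw [← supp_image_map, ← supp_image_map]
  unfold supp
  exact Finset.union_biUnion

lemma card_unionG (hι : ι ∈ Emb U A) (hφ : φ ∈ Emb X A) :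
    (unionG U X ι φ).card = U.card + (newE U X ι φ).card := by
  obtain ⟨-, hιinj, -⟩ := mem_Emb.1 hι
  obtain ⟨-, hφinj, -⟩ := mem_Emb.1 hφ
  have h1 : unionG U X ι φ = U.image (Sym2.map ι) ∪ (newE U X ι φ).image (Sym2.map φ) := by
    ext e
    simp only [unionG, mem_union, mem_image]
    constructor
    · rintro (h | ⟨e0, he0, rfl⟩)
      · exact Or.inl h
      · by_cases hc : Sym2.map φ e0 ∈ U.image (Sym2.map ι)
        · left
          obtain ⟨e1, he1, h2⟩ := mem_image.1 hc
          exact ⟨e1, he1, h2⟩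
        · right
          exact ⟨e0, mem_filter.2 ⟨he0, hc⟩, rfl⟩
    · rintro (h | ⟨e0, he0, rfl⟩)
      · exact Or.inl h
      · exact Or.inr ⟨e0, newE_subset he0, rfl⟩
  rw [h1, card_union_of_disjoint, card_image_map hιinj, card_image_map]
  · exact hφinj.mono (by exact_mod_cast supp_mono newE_subset)
  · rw [disjoint_left]
    intro e he he2
    obtain ⟨e0, he0, rfl⟩ := mem_image.1 he2
    exact (mem_filter.1 he0).2 he

lemma card_supp_unionG (hι : ι ∈ Emb U A) (hφ : φ ∈ Emb X A) :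
    (supp (unionG U X ι φ)).card = (supp U).card + (newV U X ι φ).card := by
  obtain ⟨-, hιinj, -⟩ := mem_Emb.1 hι
  obtain ⟨-, hφinj, -⟩ := mem_Emb.1 hφ
  have h1 : supp (unionG U X ι φ) = (supp U).image ι ∪ (newV U X ι φ).image φ := by
    rw [supp_unionG]
    ext y
    simp only [mem_union, mem_image]
    constructor
    · rintro (h | ⟨x, hx, rfl⟩)
      · exact Or.inl h
      · by_cases hc : φ x ∈ (supp U).image ι
        · left
          exact mem_image.1 hc
        · right
          exact ⟨x, mem_filter.2 ⟨hx, hc⟩, rfl⟩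
    · rintro (h | ⟨x, hx, rfl⟩)
      · exact Or.inl h
      · exact Or.inr ⟨x, newV_subset hx, rfl⟩
  rw [h1, card_union_of_disjoint, card_image_of_injOn hιinj, card_image_of_injOn]
  · exact hφinj.mono (by exact_mod_cast newV_subset)
  · rw [disjoint_left]
    intro y hy hy2
    obtain ⟨x, hx, rfl⟩ := mem_image.1 hy2
    exact (mem_filter.1 hx).2 hy

/-- The pairs with a given pattern and a given overlap map. -/
def patFib (U X A N : Finset (Sym2 V)) (R : Finset V) (g : V → V) : Finset ((V → V) × (V → V)) :=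
  ((Emb U A) ×ˢ (Emb X A)).filter fun p =>
    newE U X p.1 p.2 = N ∧ newV U X p.1 p.2 = R ∧ gOf U X p.1 p.2 = g

/-- The map attached to a pair of the fibre of `(ι0, φ0)`. -/
def glue (U X : Finset (Sym2 V)) (ι0 φ0 ι φ : V → V) : V → V :=
  fun w => if w ∈ (supp U).image ι0 then ι (invOn ι0 (supp U) w)
    else if w ∈ (supp X).image φ0 then φ (invOn φ0 (supp X) w) else w

lemma card_patFib_le {N : Finset (Sym2 V)} {R : Finset V} {g : V → V} {ι0 φ0 : V → V}
    (h0 : (ι0, φ0) ∈ patFib U X A N R g) :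
    (patFib U X A N R g).card ≤ inj (unionG U X ι0 φ0) A := by
  obtain ⟨h01, hN0, hR0, hg0⟩ := mem_filter.1 h0
  obtain ⟨hι0, hφ0⟩ := mem_product.1 h01
  simp only at hN0 hR0 hg0 hι0 hφ0
  obtain ⟨-, hι0inj, -⟩ := mem_Emb.1 hι0
  obtain ⟨-, hφ0inj, -⟩ := mem_Emb.1 hφ0
  -- the two compatibility facts
  have gl1 : ∀ p : (V → V) × (V → V), ∀ u ∈ supp U, glue U X ι0 φ0 p.1 p.2 (ι0 u) = p.1 u := by
    intro p u hu
    have : ι0 u ∈ (supp U).image ι0 := mem_image_of_mem _ hu
    simp only [glue, this, if_true]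
    rw [invOn_apply hι0inj hu]
  have gl2 : ∀ p ∈ patFib U X A N R g, ∀ x ∈ supp X, glue U X ι0 φ0 p.1 p.2 (φ0 x) = p.2 x := by
    intro p hp x hx
    obtain ⟨hp1, hN, hR, hg⟩ := mem_filter.1 hp
    by_cases hxR : x ∈ R
    · have hn0 : φ0 x ∉ (supp U).image ι0 := by
        rw [← hR0] at hxR
        exact (mem_filter.1 hxR).2
      have : φ0 x ∈ (supp X).image φ0 := mem_image_of_mem _ hx
      simp only [glue, hn0, this, if_false, if_true]
      rw [invOn_apply hφ0inj hx]
    · have hx0 : x ∈ supp X \ newV U X ι0 φ0 := by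
        rw [hR0]; exact mem_sdiff.2 ⟨hx, hxR⟩
      have hx1 : x ∈ supp X \ newV U X p.1 p.2 := by
        rw [hR]; exact mem_sdiff.2 ⟨hx, hxR⟩
      obtain ⟨s1, s2⟩ := gOf_spec hx0
      obtain ⟨-, s4⟩ := gOf_spec hx1
      rw [hg0] at s1 s2
      rw [hg] at s4
      rw [← s2, gl1 p (g x) s1, s4]
  apply Finset.card_le_card_of_injOn (fun p => glue U X ι0 φ0 p.1 p.2)
  · intro p hp
    have hp' := mem_coe.1 hp
    obtain ⟨hp1, hN, hR, hg⟩ := mem_filter.1 hp'
    obtain ⟨hι, hφ⟩ := mem_product.1 hp1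
    obtain ⟨-, hιinj, hιe⟩ := mem_Emb.1 hι
    obtain ⟨-, hφinj, hφe⟩ := mem_Emb.1 hφ
    refine mem_coe.2 (mem_Emb.2 ⟨?_, ?_, ?_⟩)
    · intro w hw
      rw [supp_unionG] at hw
      simp only [mem_union, not_or] at hw
      simp [glue, hw.1, hw.2]
    · -- injectivity: every point is an old point or the image of a new vertex
      have hcases : ∀ w ∈ supp (unionG U X ι0 φ0),
          (∃ u ∈ supp U, w = ι0 u) ∨ (∃ x ∈ R, w = φ0 x) := by
        intro w hw
        rw [supp_unionG] at hw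
        obtain h | h := mem_union.1 hw
        · obtain ⟨u, hu, rfl⟩ := mem_image.1 h
          exact Or.inl ⟨u, hu, rfl⟩
        · obtain ⟨x, hx, rfl⟩ := mem_image.1 h
          by_cases hc : φ0 x ∈ (supp U).image ι0
          · obtain ⟨u, hu, h2⟩ := mem_image.1 hc
            exact Or.inl ⟨u, hu, h2.symm⟩
          · refine Or.inr ⟨x, ?_, rfl⟩
            rw [← hR0]
            exact mem_filter.2 ⟨hx, hc⟩
      have hRX : ∀ x ∈ R, x ∈ supp X ∧ p.2 x ∉ (supp U).image p.1 := by
        intro x hx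
        rw [← hR] at hx
        exact mem_filter.1 hx
      intro w1 hw1 w2 hw2 hw
      rcases hcases w1 (mem_coe.1 hw1) with ⟨u1, hu1, rfl⟩ | ⟨x1, hx1, rfl⟩ <;>
        rcases hcases w2 (mem_coe.1 hw2) with ⟨u2, hu2, rfl⟩ | ⟨x2, hx2, rfl⟩
      · simp only [gl1 p u1 hu1, gl1 p u2 hu2] at hw
        rw [hιinj hu1 hu2 hw]
      · exfalso
        have h1 := gl1 p u1 hu1
        have h2 := gl2 p hp' x2 (hRX x2 hx2).1
        simp only at hw
        rw [h1, h2] at hw
        exact (hRX x2 hx2).2 (hw ▸ mem_image_of_mem _ hu1)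
      · exfalso
        have h1 := gl2 p hp' x1 (hRX x1 hx1).1
        have h2 := gl1 p u2 hu2
        simp only at hw
        rw [h1, h2] at hw
        exact (hRX x1 hx1).2 (hw ▸ mem_image_of_mem _ hu2)
      · have h1 := gl2 p hp' x1 (hRX x1 hx1).1
        have h2 := gl2 p hp' x2 (hRX x2 hx2).1
        simp only at hw
        rw [h1, h2] at hw
        rw [hφinj (hRX x1 hx1).1 (hRX x2 hx2).1 hw]
    · intro e he
      obtain h | h := mem_union.1 he
      · obtain ⟨e0, he0, rfl⟩ := mem_image.1 h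
        have : Sym2.map (glue U X ι0 φ0 p.1 p.2) (Sym2.map ι0 e0) = Sym2.map p.1 e0 := by
          rw [← Function.comp_apply (f := Sym2.map (glue U X ι0 φ0 p.1 p.2)), ← Sym2.map_comp]
          apply Sym2.map_congr
          intro x hx
          exact gl1 p x (mem_supp_of_mem he0 hx)
        rw [this]
        exact hιe e0 he0
      · obtain ⟨e0, he0, rfl⟩ := mem_image.1 h
        have : Sym2.map (glue U X ι0 φ0 p.1 p.2) (Sym2.map φ0 e0) = Sym2.map p.2 e0 := by
          rw [← Function.comp_apply (f := Sym2.map (glue U X ι0 φ0 p.1 p.2)), ← Sym2.map_comp]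
          apply Sym2.map_congr
          intro x hx
          exact gl2 p hp' x (mem_supp_of_mem he0 hx)
        rw [this]
        exact hφe e0 he0
  · intro p hp p' hp' hEq
    have hq := mem_coe.1 hp
    have hq' := mem_coe.1 hp'
    obtain ⟨hp1, -⟩ := mem_filter.1 hq
    obtain ⟨hp1', -⟩ := mem_filter.1 hq'
    obtain ⟨hι, hφ⟩ := mem_product.1 hp1
    obtain ⟨hι', hφ'⟩ := mem_product.1 hp1'
    simp only at hEq
    refine Prod.ext (Emb_eq_of_agree hι hι' ?_) (Emb_eq_of_agree hφ hφ' ?_)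
    · intro u hu
      rw [← gl1 p u hu, ← gl1 p' u hu, hEq]
    · intro x hx
      rw [← gl2 p hq x hx, ← gl2 p' hq' x hx, hEq]

end Vale.Agent.Lib.P064
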