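import Vale.Agent.Lib.P064.Pairs

/-!
The induction step of the counting lemma.
-/

open Finset
open scoped Classical

noncomputable section

set_option linter.unusedSectionVars false

namespace Vale.Agent.Lib.P064

variable {V : Type} [Fintype V]

lemma sum_erase_identity (L : ℝ) (X : Finset (Sym2 V)) :
    ∑ N ∈ X.powerset.erase ∅, (64 : ℝ) ^ N.card * L ^ (X.card - N.card) =
      (L + 64) ^ X.card - L ^ X.card := by
  have h := Finset.sum_pow_mul_eq_add_pow (64 : ℝ) L X
  rw [Finset.sum_erase_eq_sub (empty_mem_powerset X), h]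
  simp [add_comm]

/-- Number of pairs of a given pattern. -/
lemma card_pattern_le {n : ℕ} (hV : Fintype.card V ≤ n) {w : ℝ} (hw : 0 ≤ w)
    {U X A N : Finset (Sym2 V)} {R : Finset V} {Bd : ℝ} (hBd : 0 ≤ Bd)
    (hIH : (inj (X \ N) U : ℝ) ≤ (n : ℝ) ^ (supp (X \ N)).card * w ^ (X \ N).card)
    (hU : ∀ U' ⊆ A, U'.card = U.card + N.card → (supp U').card = (supp U).card + R.card →
      (inj U' A : ℝ) ≤ Bd) :
    ((((Emb U A) ×ˢ (Emb X A)).filter fun p =>
        newE U X p.1 p.2 = N ∧ newV U X p.1 p.2 = R).card : ℝ) ≤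
      (n : ℝ) ^ ((supp X).card - R.card) * w ^ (X.card - N.card) * Bd := by
  set S := ((Emb U A) ×ˢ (Emb X A)).filter fun p =>
        newE U X p.1 p.2 = N ∧ newV U X p.1 p.2 = R with hS
  rcases S.eq_empty_or_nonempty with hemp | ⟨p0, hp0⟩
  · rw [hemp]
    simp only [card_empty, Nat.cast_zero]
    positivity
  obtain ⟨hp01, hN0, hR0⟩ := mem_filter.1 hp0
  obtain ⟨hι0, hφ0⟩ := mem_product.1 hp01
  have hNX : N ⊆ X := by rw [← hN0]; exact newE_subset
  have hRX : R ⊆ supp X := by rw [← hR0]; exact newV_subset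
  have hJ : supp (X \ N) ⊆ supp X \ R := by
    rw [← hN0, ← hR0]; exact supp_old_subset
  -- fibres over the overlap map
  have hmaps : Set.MapsTo (fun p : (V → V) × (V → V) => gOf U X p.1 p.2) (S : Set _)
      (Gset U X N R : Set _) := by
    intro p hp
    obtain ⟨hp1, hN, hR⟩ := mem_filter.1 (mem_coe.1 hp)
    obtain ⟨hι, hφ⟩ := mem_product.1 hp1
    have := gOf_mem_Gset hι hφ
    rw [hN, hR] at this
    exact mem_coe.2 this
  have hcard := Finset.card_eq_sum_card_fiberwise hmaps
  have hfib : ∀ g ∈ Gset U X N R,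
      (((S.filter fun p => gOf U X p.1 p.2 = g).card : ℕ) : ℝ) ≤ Bd := by
    intro g _
    rcases (S.filter fun p => gOf U X p.1 p.2 = g).eq_empty_or_nonempty with hemp | ⟨p1, hp1⟩
    · rw [hemp]; simpa using hBd
    obtain ⟨hp1S, hg1⟩ := mem_filter.1 hp1
    obtain ⟨hp11, hN1, hR1⟩ := mem_filter.1 hp1S
    obtain ⟨hι1, hφ1⟩ := mem_product.1 hp11
    have hmem : (p1.1, p1.2) ∈ patFib U X A N R g :=
      mem_filter.2 ⟨hp11, hN1, hR1, hg1⟩
    have hsub : (S.filter fun p => gOf U X p.1 p.2 = g) ⊆ patFib U X A N R g := by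
      intro p hp
      obtain ⟨hpS, hg⟩ := mem_filter.1 hp
      obtain ⟨hp2, hN, hR⟩ := mem_filter.1 hpS
      exact mem_filter.2 ⟨hp2, hN, hR, hg⟩
    have h1 := (card_le_card hsub).trans (card_patFib_le hmem)
    have h2 : (inj (unionG U X p1.1 p1.2) A : ℝ) ≤ Bd := by
      apply hU _ (unionG_subset hι1 hφ1)
      · rw [card_unionG hι1 hφ1, hN1]
      · rw [card_supp_unionG hι1 hφ1, hR1]
    exact le_trans (by exact_mod_cast h1) h2
  have hS_le : (S.card : ℝ) ≤ ((Gset U X N R).card : ℝ) * Bd := by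
    rw [hcard]
    push_cast
    calc ∑ g ∈ Gset U X N R, (((S.filter fun p => gOf U X p.1 p.2 = g).card : ℕ) : ℝ)
        ≤ ∑ _g ∈ Gset U X N R, Bd := Finset.sum_le_sum hfib
      _ = ((Gset U X N R).card : ℝ) * Bd := by simp
  have hG : ((Gset U X N R).card : ℝ) ≤ (n : ℝ) ^ ((supp X).card - R.card) * w ^ (X.card - N.card) := by
    have h1 := card_Gset_le (U := U) hJ
    have h2 : ((Gset U X N R).card : ℝ) ≤ (inj (X \ N) U : ℝ) *
        (Fintype.card V : ℝ) ^ ((supp X \ R).card - (supp (X \ N)).card) := by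
      exact_mod_cast h1
    have hOcard : (supp X \ R).card = (supp X).card - R.card := card_sdiff_of_subset hRX
    have hJcard : (X \ N).card = X.card - N.card := card_sdiff_of_subset hNX
    have hle : (supp (X \ N)).card ≤ (supp X \ R).card := card_le_card hJ
    have hn0 : (0 : ℝ) ≤ n := Nat.cast_nonneg _
    calc ((Gset U X N R).card : ℝ)
        ≤ (inj (X \ N) U : ℝ) * (Fintype.card V : ℝ) ^ ((supp X \ R).card - (supp (X \ N)).card) := h2
      _ ≤ ((n : ℝ) ^ (supp (X \ N)).card * w ^ (X \ N).card) *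
            (n : ℝ) ^ ((supp X \ R).card - (supp (X \ N)).card) := by
          apply mul_le_mul hIH _ (by positivity) (by positivity)
          exact pow_le_pow_left₀ (Nat.cast_nonneg _) (by exact_mod_cast hV) _
      _ = (n : ℝ) ^ ((supp X).card - R.card) * w ^ (X.card - N.card) := by
          rw [← hOcard, ← hJcard]
          have : (supp X \ R).card = (supp (X \ N)).card +
              ((supp X \ R).card - (supp (X \ N)).card) := by omega
          conv_rhs => rw [this, pow_add]
          ring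
  exact hS_le.trans (mul_le_mul_of_nonneg_right hG hBd)

/-- The pairs with at least one new edge. -/
lemma card_new_pairs_le {n : ℕ} (hV : Fintype.card V ≤ n) {q L : ℝ} (hq : 0 < q) (hL : 0 ≤ L)
    {U X A : Finset (Sym2 V)} {BU : ℝ} (hBU : 0 ≤ BU)
    (hIH : ∀ N ⊆ X, (inj (X \ N) U : ℝ) ≤ (n : ℝ) ^ (supp (X \ N)).card * (L * q) ^ (X \ N).card)
    (hU : ∀ N ⊆ X, N ≠ ∅ → ∀ R ⊆ supp X, ∀ U' ⊆ A, U'.card = U.card + N.card →
      (supp U').card = (supp U).card + R.card →
      (inj U' A : ℝ) ≤ BU * (n : ℝ) ^ R.card * (16 * q) ^ N.card) :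
    ((((Emb U A) ×ˢ (Emb X A)).filter fun p => newE U X p.1 p.2 ≠ ∅).card : ℝ) ≤
      (n : ℝ) ^ (supp X).card * q ^ X.card * BU * ((L + 64) ^ X.card - L ^ X.card) := by
  set P := ((Emb U A) ×ˢ (Emb X A)).filter fun p => newE U X p.1 p.2 ≠ ∅ with hP
  set T := X.powerset.erase ∅ with hT
  have hn0 : (0 : ℝ) ≤ n := Nat.cast_nonneg _
  set M : ℝ := (n : ℝ) ^ (supp X).card * q ^ X.card with hM
  have hM0 : 0 ≤ M := by positivity
  have hmaps : Set.MapsTo (fun p : (V → V) × (V → V) => newE U X p.1 p.2) (P : Set _) (T : Set _) := by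
    intro p hp
    obtain ⟨-, hne⟩ := mem_filter.1 (mem_coe.1 hp)
    exact mem_coe.2 (mem_erase.2 ⟨hne, mem_powerset.2 newE_subset⟩)
  have h1 := Finset.card_eq_sum_card_fiberwise hmaps
  -- bound for each `N`
  have hN : ∀ N ∈ T, (((P.filter fun p => newE U X p.1 p.2 = N).card : ℕ) : ℝ) ≤
      (64 : ℝ) ^ N.card * L ^ (X.card - N.card) * (M * BU) := by
    intro N hNT
    obtain ⟨hNe, hNp⟩ := mem_erase.1 hNT
    have hNX : N ⊆ X := mem_powerset.1 hNp
    set PN := P.filter fun p => newE U X p.1 p.2 = N with hPN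
    have hmaps2 : Set.MapsTo (fun p : (V → V) × (V → V) => newV U X p.1 p.2) (PN : Set _)
        ((supp N).powerset : Set _) := by
      intro p hp
      obtain ⟨-, hNp⟩ := mem_filter.1 (mem_coe.1 hp)
      refine mem_coe.2 (mem_powerset.2 ?_)
      rw [← hNp]
      exact newV_subset_supp_newE
    have h2 := Finset.card_eq_sum_card_fiberwise hmaps2
    have hW : ∀ R ∈ (supp N).powerset, (((PN.filter fun p => newV U X p.1 p.2 = R).card : ℕ) : ℝ) ≤
        L ^ (X.card - N.card) * 16 ^ N.card * (M * BU) := by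
      intro R hR
      have hRN : R ⊆ supp N := mem_powerset.1 hR
      have hRX : R ⊆ supp X := hRN.trans (supp_mono hNX)
      have hsub : (PN.filter fun p => newV U X p.1 p.2 = R) ⊆
          (((Emb U A) ×ˢ (Emb X A)).filter fun p =>
            newE U X p.1 p.2 = N ∧ newV U X p.1 p.2 = R) := by
        intro p hp
        obtain ⟨hpN, hR'⟩ := mem_filter.1 hp
        obtain ⟨hpP, hN'⟩ := mem_filter.1 hpN
        obtain ⟨hp1, -⟩ := mem_filter.1 hpP
        exact mem_filter.2 ⟨hp1, hN', hR'⟩
      have h3 := card_pattern_le (A := A) (U := U) (X := X) (N := N) (R := R) hV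
        (w := L * q) (by positivity)
        (Bd := BU * (n : ℝ) ^ R.card * (16 * q) ^ N.card) (by positivity)
        (hIH N hNX) (hU N hNX hNe R hRX)
      have h4 : (((PN.filter fun p => newV U X p.1 p.2 = R).card : ℕ) : ℝ) ≤
          (((((Emb U A) ×ˢ (Emb X A)).filter fun p =>
            newE U X p.1 p.2 = N ∧ newV U X p.1 p.2 = R).card : ℕ) : ℝ) := by
        exact_mod_cast card_le_card hsub
      refine (h4.trans h3).trans (le_of_eq ?_)
      have hRc : R.card ≤ (supp X).card := card_le_card hRX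
      have hNc : N.card ≤ X.card := card_le_card hNX
      have e1 : (n : ℝ) ^ (supp X).card = (n : ℝ) ^ ((supp X).card - R.card) * (n : ℝ) ^ R.card := by
        rw [← pow_add]; congr 1; omega
      have e2 : q ^ X.card = q ^ (X.card - N.card) * q ^ N.card := by
        rw [← pow_add]; congr 1; omega
      rw [hM, e1, e2, mul_pow, mul_pow]
      ring
    rw [h2]
    push_cast
    calc ∑ R ∈ (supp N).powerset, (((PN.filter fun p => newV U X p.1 p.2 = R).card : ℕ) : ℝ)
        ≤ ∑ _R ∈ (supp N).powerset, L ^ (X.card - N.card) * 16 ^ N.card * (M * BU) :=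
          Finset.sum_le_sum hW
      _ = (2 : ℝ) ^ (supp N).card * (L ^ (X.card - N.card) * 16 ^ N.card * (M * BU)) := by
          simp
      _ ≤ (2 : ℝ) ^ (2 * N.card) * (L ^ (X.card - N.card) * 16 ^ N.card * (M * BU)) := by
          apply mul_le_mul_of_nonneg_right
          · exact pow_le_pow_right₀ (by norm_num) (card_supp_le N)
          · positivity
      _ = (64 : ℝ) ^ N.card * L ^ (X.card - N.card) * (M * BU) := by
          rw [pow_mul]
          have : (64 : ℝ) = 2 ^ 2 * 16 := by norm_num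
          rw [this, mul_pow]
          ring
  rw [h1]
  push_cast
  calc ∑ N ∈ T, (((P.filter fun p => newE U X p.1 p.2 = N).card : ℕ) : ℝ)
      ≤ ∑ N ∈ T, (64 : ℝ) ^ N.card * L ^ (X.card - N.card) * (M * BU) := Finset.sum_le_sum hN
    _ = M * BU * ((L + 64) ^ X.card - L ^ X.card) := by
        rw [← Finset.sum_mul, hT, sum_erase_identity]
        ring

/-- The induction step: the constant grows by `64` when the size of the ambient graph is
multiplied by `4`. -/
theorem step {n : ℕ} (hV : Fintype.card V ≤ n) {q : ℝ} (hq : 0 < q) {EH : Finset (Sym2 V)}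
    (hC : ∀ U ⊆ EH, (inj U U : ℝ) ≤ (n : ℝ) ^ (supp U).card * q ^ U.card) {k : ℕ}
    (IH : ∀ A ⊆ EH, A.card < 4 ^ k → ∀ X ⊆ EH,
      (inj X A : ℝ) ≤ (n : ℝ) ^ (supp X).card * ((64 * k : ℝ) * q) ^ X.card) :
    ∀ A ⊆ EH, A.card < 4 ^ (k + 1) → ∀ X ⊆ EH,
      (inj X A : ℝ) ≤ (n : ℝ) ^ (supp X).card * ((64 * ((k + 1 : ℕ) : ℝ)) * q) ^ X.card := by
  intro A hA hAcard X hX
  have hn0 : (0 : ℝ) ≤ n := Nat.cast_nonneg _
  rcases X.eq_empty_or_nonempty with rfl | hXne
  · simp [inj_empty_left]
  set L : ℝ := 64 * k with hL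
  have hL0 : 0 ≤ L := by positivity
  set M : ℝ := (n : ℝ) ^ (supp X).card * q ^ X.card with hM
  have hM0 : 0 ≤ M := by positivity
  have hstep : (64 * ((k + 1 : ℕ) : ℝ)) = L + 64 := by
    rw [hL]; push_cast; ring
  rw [hstep, mul_pow]
  by_contra hcon
  push_neg at hcon
  have hcon' : M * (L + 64) ^ X.card < (inj X A : ℝ) := by
    calc M * (L + 64) ^ X.card = (n : ℝ) ^ (supp X).card * ((L + 64) ^ X.card * q ^ X.card) := by
          rw [hM]; ring
      _ < _ := hcon
  set θ : ℕ := 4 ^ k with hθ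
  -- the bound
  set B : Finset (Sym2 V) → ℝ := fun U =>
    (2 : ℝ) ^ A.card * (n : ℝ) ^ (supp U).card * q ^ U.card * 16 ^ U.card / 16 ^ θ with hB
  have hB0 : ∀ U, 0 ≤ B U := fun U => by
    simp only [hB]; positivity
  have claim : ∀ d : ℕ, ∀ U ⊆ A, θ ≤ U.card + d → (inj U A : ℝ) ≤ B U := by
    intro d
    induction d with
    | zero =>
      intro U hU hθU
      have hθU' : θ ≤ U.card := by simpa using hθU
      have h1 : (inj U A : ℝ) ≤ (inj U U : ℝ) * 2 ^ A.card := by
        exact_mod_cast inj_le_two_pow_mul U A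
      have h2 := hC U (hU.trans hA)
      have h3 : (1 : ℝ) ≤ 16 ^ U.card / 16 ^ θ := by
        rw [one_le_div (by positivity)]
        exact pow_le_pow_right₀ (by norm_num) hθU'
      calc (inj U A : ℝ) ≤ (inj U U : ℝ) * 2 ^ A.card := h1
        _ ≤ ((n : ℝ) ^ (supp U).card * q ^ U.card) * 2 ^ A.card :=
            mul_le_mul_of_nonneg_right h2 (by positivity)
        _ = ((2 : ℝ) ^ A.card * (n : ℝ) ^ (supp U).card * q ^ U.card) * 1 := by ring
        _ ≤ ((2 : ℝ) ^ A.card * (n : ℝ) ^ (supp U).card * q ^ U.card) * (16 ^ U.card / 16 ^ θ) :=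
            mul_le_mul_of_nonneg_left h3 (by positivity)
        _ = B U := by simp only [hB]; ring
    | succ d ih =>
      intro U hU hθU
      by_cases hbig : θ ≤ U.card
      · -- same as the base case
        have h1 : (inj U A : ℝ) ≤ (inj U U : ℝ) * 2 ^ A.card := by
          exact_mod_cast inj_le_two_pow_mul U A
        have h2 := hC U (hU.trans hA)
        have h3 : (1 : ℝ) ≤ 16 ^ U.card / 16 ^ θ := by
          rw [one_le_div (by positivity)]
          exact pow_le_pow_right₀ (by norm_num) hbig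
        calc (inj U A : ℝ) ≤ (inj U U : ℝ) * 2 ^ A.card := h1
          _ ≤ ((n : ℝ) ^ (supp U).card * q ^ U.card) * 2 ^ A.card :=
              mul_le_mul_of_nonneg_right h2 (by positivity)
          _ = ((2 : ℝ) ^ A.card * (n : ℝ) ^ (supp U).card * q ^ U.card) * 1 := by ring
          _ ≤ ((2 : ℝ) ^ A.card * (n : ℝ) ^ (supp U).card * q ^ U.card) * (16 ^ U.card / 16 ^ θ) :=
              mul_le_mul_of_nonneg_left h3 (by positivity)
          _ = B U := by simp only [hB]; ring
      push_neg at hbig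
      have hUE : U ⊆ EH := hU.trans hA
      -- the old pairs
      have hold : (inj X U : ℝ) ≤ M * L ^ X.card := by
        have := IH U hUE hbig X hX
        calc (inj X U : ℝ) ≤ (n : ℝ) ^ (supp X).card * (L * q) ^ X.card := this
          _ = M * L ^ X.card := by rw [hM, mul_pow]; ring
      -- the new pairs
      have hnew := card_new_pairs_le (A := A) (U := U) (X := X) hV hq hL0 (hB0 U)
        (fun N hN => IH U hUE hbig (X \ N) (sdiff_subset.trans hX))
        (fun N hNX hNe R hRX U' hU' hc1 hc2 => by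
          have hNpos : 0 < N.card := card_pos.2 (nonempty_iff_ne_empty.2 hNe)
          have := ih U' hU' (by omega)
          refine this.trans (le_of_eq ?_)
          simp only [hB]
          rw [hc1, hc2, pow_add, pow_add, pow_add, mul_pow]
          ring)
      have hsplit := Finset.card_filter_add_card_filter_not (s := (Emb U A) ×ˢ (Emb X A))
        (fun p : (V → V) × (V → V) => newE U X p.1 p.2 = ∅)
      have hold2 := card_old_pairs_le (U := U) (X := X) (A := A)
      have hpairs : (inj U A : ℝ) * (inj X A : ℝ) ≤ (inj U A : ℝ) * (inj X U : ℝ) +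
          M * B U * ((L + 64) ^ X.card - L ^ X.card) := by
        have h1 : (inj U A : ℝ) * (inj X A : ℝ) =
            ((((Emb U A) ×ˢ (Emb X A)).filter fun p => newE U X p.1 p.2 = ∅).card : ℝ) +
            ((((Emb U A) ×ˢ (Emb X A)).filter fun p => ¬ newE U X p.1 p.2 = ∅).card : ℝ) := by
          have : inj U A * inj X A = ((Emb U A) ×ˢ (Emb X A)).card := by
            rw [card_product]; rfl
          exact_mod_cast this.trans hsplit.symm
        rw [h1]
        apply add_le_add
        · exact_mod_cast hold2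
        · exact hnew
      -- conclusion
      set Δ : ℝ := (L + 64) ^ X.card - L ^ X.card with hΔ
      have hΔ0 : 0 ≤ Δ := by
        rw [hΔ, sub_nonneg]
        exact pow_le_pow_left₀ hL0 (by linarith) _
      have hY : M * Δ < (inj X A : ℝ) - M * L ^ X.card := by
        rw [hΔ]
        nlinarith [hcon']
      have hYpos : 0 < (inj X A : ℝ) - M * L ^ X.card :=
        lt_of_le_of_lt (mul_nonneg hM0 hΔ0) hY
      by_contra hgt
      push_neg at hgt
      have hinj0 : (0 : ℝ) ≤ inj U A := Nat.cast_nonneg _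
      have h5 : (inj U A : ℝ) * ((inj X A : ℝ) - M * L ^ X.card) ≤ M * B U * Δ := by
        have : (inj U A : ℝ) * (inj X U : ℝ) ≤ (inj U A : ℝ) * (M * L ^ X.card) :=
          mul_le_mul_of_nonneg_left hold hinj0
        nlinarith [hpairs, this]
      have h6 : B U * (M * Δ) ≤ B U * ((inj X A : ℝ) - M * L ^ X.card) :=
        mul_le_mul_of_nonneg_left hY.le (hB0 U)
      have h7 : B U * ((inj X A : ℝ) - M * L ^ X.card) <
          (inj U A : ℝ) * ((inj X A : ℝ) - M * L ^ X.card) :=
        mul_lt_mul_of_pos_right hgt hYpos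
      nlinarith [h5, h6, h7]
  -- the empty graph gives a contradiction
  have hfinal := claim θ ∅ (empty_subset _) (by simp)
  rw [inj_empty_left] at hfinal
  have hlt : B ∅ < 1 := by
    simp only [hB, supp_empty, card_empty, pow_zero, mul_one, Nat.cast_one]
    rw [div_lt_one (by positivity)]
    have h16 : (16 : ℝ) ^ θ = 2 ^ (4 ^ (k + 1)) := by
      rw [hθ, pow_succ 4 k, mul_comm, pow_mul]
      norm_num
    rw [h16]
    exact pow_lt_pow_right₀ (by norm_num) hAcard
  push_cast at hfinal
  linarith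

/-- The counting lemma: the constant is `64 k` when the ambient graph has fewer than `4 ^ k` edges. -/
theorem counting {n : ℕ} (hV : Fintype.card V ≤ n) {q : ℝ} (hq : 0 < q) {EH : Finset (Sym2 V)}
    (hC : ∀ U ⊆ EH, (inj U U : ℝ) ≤ (n : ℝ) ^ (supp U).card * q ^ U.card) (k : ℕ) :
    ∀ A ⊆ EH, A.card < 4 ^ k → ∀ X ⊆ EH,
      (inj X A : ℝ) ≤ (n : ℝ) ^ (supp X).card * ((64 * (k : ℕ) : ℝ) * q) ^ X.card := by
  induction k with
  | zero =>
    intro A _ hA X _
    have hA0 : A = ∅ := by
      rw [← card_eq_zero]; simpa using hA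
    subst hA0
    rcases X.eq_empty_or_nonempty with rfl | ⟨e, he⟩
    · simp [inj_empty_left]
    · have hemp : Emb X (∅ : Finset (Sym2 V)) = ∅ := by
        ext f
        simp only [mem_Emb, notMem_empty, iff_false, not_and]
        intro _ _ h
        exact h e he
      have hcard : 0 < X.card := card_pos.2 ⟨e, he⟩
      simp [inj, hemp, zero_pow hcard.ne']
  | succ k ih =>
    exact step hV hq hC ih

end Vale.Agent.Lib.P064
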